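import Vale.Agent.P240.Defs

/-! P240 E/Defs: total reduced rational homology of the Quillen complex of a subgroup. -/

namespace Vale.Agent.P240

open Subgroup Finsupp

/-- Rational combinations of lists of subgroups. -/
abbrev LV (G : Type*) [Group G] : Type _ := List (Subgroup G) →₀ ℚ

/-- The simplicial boundary: alternating sum of the lists with one entry deleted. -/
noncomputable def dd (G : Type*) [Group G] : LV G →ₗ[ℚ] LV G :=
  linearCombination ℚ fun l =>
    ∑ i ∈ Finset.range l.length, (-1 : ℚ) ^ i • single (l.eraseIdx i) (1 : ℚ)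

/-- Simplices of the order complex of `A_p(K)`, including the empty one: strictly increasing lists
of nonidentity elementary abelian `p`-subgroups of `K`. -/
def StIn (p : ℕ) {G : Type*} [Group G] (K : Subgroup G) : Set (List (Subgroup G)) :=
  {l | l.Pairwise (· < ·) ∧ ∀ E ∈ l, IsEA p E ∧ E ≤ K}

/-- The reduced rational homology of `A_p(K)` is nonzero: some cycle is not a boundary. -/
def HQ (p : ℕ) {G : Type*} [Group G] (K : Subgroup G) : Prop :=
  ∃ z ∈ supported ℚ ℚ (StIn p K), dd G z = 0 ∧ ∀ y ∈ supported ℚ ℚ (StIn p K), dd G y ≠ z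

/-- `O_p(K) = 1`: every `p`-subgroup of `K` normalized by `K` is trivial. -/
def NoOp (p : ℕ) {G : Type*} [Group G] (K : Subgroup G) : Prop :=
  ∀ P : Subgroup G, P ≤ K → IsPGroup p P → K ≤ normalizer P → P = ⊥

end Vale.Agent.P240
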