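import Vale.Agent.P240.Sys
import Vale.Agent.P240.E.Defs

/-! P240 E/Def2: operators on lists of subgroups. -/

namespace Vale.Agent.P240

open Subgroup Finsupp

variable {G : Type*} [Group G]

/-- Prepend a subgroup. -/
noncomputable def cs (E : Subgroup G) : LV G →ₗ[ℚ] LV G := lmapDomain ℚ ℚ (List.cons E)

/-- Join every entry with `A`. -/
noncomputable def mu (A : Subgroup G) : LV G →ₗ[ℚ] LV G := lmapDomain ℚ ℚ (List.map (· ⊔ A))

/-- The prism and cone operator on a list lying above `E`. -/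
noncomputable def sl (T : Subgroup G) : Subgroup G → List (Subgroup G) → LV G
  | E, [] => single [E ⊔ T] 1
  | E, D :: l => single ((E ⊔ T) :: (D :: l).map (· ⊔ T)) 1 - cs D (sl T D l)

/-- Linear extension of `sl`. -/
noncomputable def ss (T E : Subgroup G) : LV G →ₗ[ℚ] LV G := linearCombination ℚ (sl T E)

open Classical in
/-- Remove the first entry if it is `F`. -/
noncomputable def stl (F : Subgroup G) : List (Subgroup G) → LV G
  | [] => 0
  | H :: l => if H = F then single l 1 else 0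

/-- Linear extension of `stl`. -/
noncomputable def strip (F : Subgroup G) : LV G →ₗ[ℚ] LV G := linearCombination ℚ (stl F)

/-- Iterated cone operator. -/
noncomputable def SS (E : Subgroup G) : List G → (LV G →ₗ[ℚ] LV G)
  | [] => LinearMap.id
  | t :: ts => ss (zpowers t) E ∘ₗ SS E ts

/-- Iterated removal of an initial flag. -/
noncomputable def STR : List (Subgroup G) → (LV G →ₗ[ℚ] LV G)
  | [] => LinearMap.id
  | F :: Fs => STR Fs ∘ₗ strip F

/-- The flag above `E` generated by a list of elements. -/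
def fl : Subgroup G → List G → List (Subgroup G)
  | _, [] => []
  | E, t :: ts => (E ⊔ zpowers t) :: fl (E ⊔ zpowers t) ts

open Classical in
/-- The coefficient of a flag. -/
noncomputable def co : List (Subgroup G) → Subgroup G → List G → ℚ
  | [], _, _ => 1
  | F :: Fs, E, ts => ∑ i ∈ Finset.range ts.length,
      (-1 : ℚ) ^ i * if F = E ⊔ zpowers (ts.getD i 1) then co Fs F (ts.eraseIdx i) else 0

/-- Weakly increasing lists. -/
def WkIn (K : Subgroup G) : Set (List (Subgroup G)) :=
  {l | l.Pairwise (· ≤ ·) ∧ ∀ E ∈ l, IsEA 2 E ∧ E ≤ K}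

/-- Strict lists above `A`. -/
def StAb (A : Subgroup G) : Set (List (Subgroup G)) :=
  {l | l.Pairwise (· < ·) ∧ ∀ E ∈ l, IsEA 2 E ∧ A < E}

/-- `A` is an elementary abelian (or trivial) 2-group normalizing `L` whose elements in
`L C(L)` lie in `L`. -/
def Outer (L A : Subgroup G) : Prop :=
  A ≤ normalizer L ∧ (∀ x ∈ A, ∀ y ∈ A, x * y = y * x) ∧ (∀ x ∈ A, x * x = 1) ∧
    A ⊓ (L ⊔ centralizer L) ≤ L

/-- Propagation condition: a system in `H` whose distinguished group is maximal elementary abelian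
in `H`, meets `L` and generates `H` together with `L`. -/
def PC (L H : Subgroup G) : Prop :=
  ∃ (m : ℕ) (Γ : Type) (_ : Fintype Γ) (τ : Γ → Fin m → G) (c : Γ → ℚ) (γ₀ : Γ), Sys τ c γ₀ ∧
    (∀ γ j, τ γ j ∈ H) ∧ L ⊔ closure (Set.range (τ γ₀)) = H ∧
    (∃ x ∈ L, x ≠ 1 ∧ x ∈ closure (Set.range (τ γ₀))) ∧
    ∀ x ∈ H, x * x = 1 → (∀ j, x * τ γ₀ j = τ γ₀ j * x) → x ∈ closure (Set.range (τ γ₀))

end Vale.Agent.P240
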