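import Vale.Agent.P240.E.Ops

/-! P240 E/Acyc. Weak chains in a 2-group are acyclic; normalization. Plan: acyc_wk: take z of order
two in the centre of P (IsPGroup.center_nontrivial, Cauchy); ss (zpowers z) bot preserves the weak
lists in P (induction on l generalizing the base E <= every entry), then dd_ss. norm_wk: nz = the
projection keeping strict lists (Finsupp.filter, linear); nz (dd y) = dd (nz y) for weak y: for a weak
non strict list E :: l either l is not strict (use nz (cs E x) = nz (cs E (nz x))) or l = E :: l'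
and dd = cs E (cs E (dd l')). -/

namespace Vale.Agent.P240

open Subgroup Finsupp

variable {G : Type*} [Group G]

theorem lin_mem_EAcyc {S : Set (List (Subgroup G))} {N : Submodule ℚ (LV G)}
    (φ : LV G →ₗ[ℚ] LV G) (h : ∀ l ∈ S, φ (single l 1) ∈ N) {x : LV G}
    (hx : x ∈ supported ℚ ℚ S) : φ x ∈ N := by
  have : supported ℚ ℚ S ≤ N.comap φ := by
    rw [supported_eq_span_single, Submodule.span_le]
    rintro _ ⟨l, hl, rfl⟩
    exact h l hl
  exact this hx

theorem lin_eq_EAcyc {S : Set (List (Subgroup G))} (φ ψ : LV G →ₗ[ℚ] LV G)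
    (h : ∀ l ∈ S, φ (single l 1) = ψ (single l 1)) {x : LV G}
    (hx : x ∈ supported ℚ ℚ S) : φ x = ψ x := by
  have := lin_mem_EAcyc (N := ⊥) (φ - ψ) (fun l hl => by
    rw [Submodule.mem_bot, LinearMap.sub_apply, h l hl, sub_self]) hx
  rwa [Submodule.mem_bot, LinearMap.sub_apply, sub_eq_zero] at this

theorem cs_single_EAcyc (E : Subgroup G) (l : List (Subgroup G)) :
    cs E (single l (1 : ℚ)) = single (E :: l) 1 := by
  rw [cs, lmapDomain_apply, mapDomain_single]

theorem exists_z_EAcyc [Finite G] {P : Subgroup G} (h0 : P ≠ ⊥) (hP : IsPGroup 2 P) :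
    ∃ z ∈ P, z ≠ 1 ∧ z * z = 1 ∧ ∀ x ∈ P, x * z = z * x := by
  haveI : Fact (Nat.Prime 2) := ⟨Nat.prime_two⟩
  haveI : Nontrivial P := (nontrivial_iff_ne_bot P).2 h0
  haveI := hP.center_nontrivial
  obtain ⟨n, hn0, hn⟩ := (hP.to_subgroup (center P)).nontrivial_iff_card.1 inferInstance
  obtain ⟨z, hz⟩ := exists_prime_orderOf_dvd_card' (G := center P) 2
    (by rw [hn]; exact dvd_pow_self 2 hn0.ne')
  refine ⟨z.1.1, z.1.2, fun h => ?_, ?_, fun x hx => ?_⟩
  · have : z = 1 := Subtype.ext (Subtype.ext h)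
    rw [this, orderOf_one] at hz
    omega
  · have := pow_orderOf_eq_one z
    rw [hz, pow_two] at this
    exact congrArg (fun t : center P => t.1.1) this
  · exact congrArg Subtype.val (mem_center_iff.1 z.2 ⟨x, hx⟩)

theorem ea_sup_EAcyc {P E : Subgroup G} {z : G} (hz1 : z ≠ 1) (hz2 : z * z = 1)
    (hc : ∀ x ∈ P, x * z = z * x) (hE : E ≤ P) (h1 : ∀ x ∈ E, ∀ y ∈ E, x * y = y * x)
    (h2 : ∀ x ∈ E, x ^ 2 = 1) : IsEA 2 (E ⊔ zpowers z) := by
  have hzz : ∀ e ∈ E, Commute e z := fun e he => hc e (hE he)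
  let H : Subgroup G :=
    { carrier := {x | ∃ e ∈ E, x = e ∨ x = e * z}
      one_mem' := ⟨1, E.one_mem, Or.inl rfl⟩
      mul_mem' := by
        rintro a b ⟨e, he, ha⟩ ⟨f, hf, hb⟩
        refine ⟨e * f, E.mul_mem he hf, ?_⟩
        rcases ha with rfl | rfl <;> rcases hb with rfl | rfl
        · exact Or.inl rfl
        · exact Or.inr (mul_assoc _ _ _).symm
        · exact Or.inr (by rw [mul_assoc, ← (hzz _ hf).eq, mul_assoc])
        · exact Or.inl (by rw [mul_assoc, ← mul_assoc z, ← (hzz _ hf).eq, mul_assoc f, hz2, mul_one])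
      inv_mem' := by
        rintro a ⟨e, he, ha⟩
        refine ⟨e⁻¹, E.inv_mem he, ?_⟩
        rcases ha with rfl | rfl
        · exact Or.inl rfl
        · refine Or.inr ?_
          rw [mul_inv_rev, inv_eq_of_mul_eq_one_right hz2, (hzz _ (E.inv_mem he)).eq] }
  have hle : E ⊔ zpowers z ≤ H :=
    sup_le (fun e he => ⟨e, he, Or.inl rfl⟩)
      ((zpowers_le (H := H)).2 ⟨1, E.one_mem, Or.inr (one_mul z).symm⟩)
  refine ⟨fun h => hz1 ?_, fun x hx y hy => ?_, fun x hx => ?_⟩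
  · have : z ∈ E ⊔ zpowers z := mem_sup_right (mem_zpowers z)
    rwa [h, mem_bot] at this
  · obtain ⟨e, he, ha⟩ := hle hx
    obtain ⟨f, hf, hb⟩ := hle hy
    have k : Commute e f := h1 e he f hf
    rcases ha with rfl | rfl <;> rcases hb with rfl | rfl
    · exact k.eq
    · exact (k.mul_right (hzz _ he)).eq
    · exact (k.mul_left (hzz _ hf).symm).eq
    · exact ((k.mul_right (hzz _ he)).mul_left ((hzz _ hf).symm.mul_right (Commute.refl z))).eq
  · obtain ⟨e, he, ha⟩ := hle hx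
    rcases ha with rfl | rfl
    · exact h2 _ he
    · rw [(hzz _ he).mul_pow, h2 _ he, pow_two, hz2, one_mul]

theorem sl_mem_EAcyc {P : Subgroup G} {z : G} (hzP : z ∈ P) (hz1 : z ≠ 1) (hz2 : z * z = 1)
    (hc : ∀ x ∈ P, x * z = z * x) (l : List (Subgroup G)) : ∀ E : Subgroup G, E ≤ P →
      (∀ x ∈ E, ∀ y ∈ E, x * y = y * x) → (∀ x ∈ E, x ^ 2 = 1) → l ∈ WkIn P → (∀ D ∈ l, E ≤ D) →
      sl (zpowers z) E l ∈ supported ℚ ℚ {m | m ∈ WkIn P ∧ ∀ D ∈ m, E ≤ D} := by
  have hT : zpowers z ≤ P := (zpowers_le (H := P)).2 hzP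
  have top : ∀ (l : List (Subgroup G)) (E : Subgroup G), E ≤ P →
      (∀ x ∈ E, ∀ y ∈ E, x * y = y * x) → (∀ x ∈ E, x ^ 2 = 1) → l ∈ WkIn P → (∀ D ∈ l, E ≤ D) →
      single ((E ⊔ zpowers z) :: l.map (· ⊔ zpowers z)) (1 : ℚ) ∈
        supported ℚ ℚ {m | m ∈ WkIn P ∧ ∀ D ∈ m, E ≤ D} := by
    intro l E hE h1 h2 hl hEl
    refine single_mem_supported ℚ _ ⟨⟨?_, ?_⟩, ?_⟩
    · rw [List.pairwise_cons, List.pairwise_map]
      refine ⟨fun D hD => ?_, hl.1.imp fun h => sup_le_sup_right h _⟩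
      obtain ⟨D', hD', rfl⟩ := List.mem_map.1 hD
      exact sup_le_sup_right (hEl D' hD') _
    · intro D hD
      rcases List.mem_cons.1 hD with rfl | hD
      · exact ⟨ea_sup_EAcyc hz1 hz2 hc hE h1 h2, sup_le hE hT⟩
      · obtain ⟨D', hD', rfl⟩ := List.mem_map.1 hD
        have k := hl.2 D' hD'
        exact ⟨ea_sup_EAcyc hz1 hz2 hc k.2 k.1.2.1 k.1.2.2, sup_le k.2 hT⟩
    · intro D hD
      rcases List.mem_cons.1 hD with rfl | hD
      · exact le_sup_left
      · obtain ⟨D', hD', rfl⟩ := List.mem_map.1 hD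
        exact (hEl D' hD').trans le_sup_left
  induction l with
  | nil =>
    intro E hE h1 h2 hl hEl
    exact top [] E hE h1 h2 hl hEl
  | cons D l ih =>
    intro E hE h1 h2 hl hEl
    have hD := hl.2 D List.mem_cons_self
    have hp := List.pairwise_cons.1 hl.1
    have k := ih D hD.2 hD.1.2.1 hD.1.2.2 ⟨hp.2, fun F hF => hl.2 F (List.mem_cons_of_mem _ hF)⟩ hp.1
    rw [sl]
    refine Submodule.sub_mem _ (top _ E hE h1 h2 hl hEl) (lin_mem_EAcyc (cs D) ?_ k)
    rintro m ⟨m1, m2⟩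
    rw [cs_single_EAcyc]
    refine single_mem_supported ℚ _ ⟨⟨List.pairwise_cons.2 ⟨m2, m1.1⟩, fun F hF => ?_⟩, fun F hF => ?_⟩
    · rcases List.mem_cons.1 hF with rfl | hF
      · exact hD
      · exact m1.2 F hF
    · rcases List.mem_cons.1 hF with rfl | hF
      · exact hEl _ List.mem_cons_self
      · exact (hEl _ List.mem_cons_self).trans (m2 F hF)

open Classical in
/-- The projection that keeps the strict lists. -/
noncomputable def nzEAcyc (G : Type*) [Group G] : LV G →ₗ[ℚ] LV G :=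
  linearCombination ℚ fun l => if l.Pairwise (· < ·) then single l 1 else 0

theorem nz_pos_EAcyc {l : List (Subgroup G)} (h : l.Pairwise (· < ·)) :
    nzEAcyc G (single l 1) = single l 1 := by
  rw [nzEAcyc, linearCombination_single, one_smul, if_pos h]

theorem nz_neg_EAcyc {l : List (Subgroup G)} (h : ¬ l.Pairwise (· < ·)) :
    nzEAcyc G (single l 1) = 0 := by
  rw [nzEAcyc, linearCombination_single, one_smul, if_neg h]

theorem mem_univ_EAcyc (x : LV G) : x ∈ supported ℚ ℚ (Set.univ : Set (List (Subgroup G))) := by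
  rw [supported_univ]
  exact Submodule.mem_top

theorem nz_cs_EAcyc (E : Subgroup G) (x : LV G) :
    nzEAcyc G (cs E x) = nzEAcyc G (cs E (nzEAcyc G x)) := by
  refine lin_eq_EAcyc (nzEAcyc G ∘ₗ cs E) (nzEAcyc G ∘ₗ cs E ∘ₗ nzEAcyc G) (fun l _ => ?_)
    (mem_univ_EAcyc x)
  simp only [LinearMap.comp_apply]
  by_cases h : l.Pairwise (· < ·)
  · rw [nz_pos_EAcyc h]
  · rw [nz_neg_EAcyc h, map_zero, map_zero, cs_single_EAcyc,
      nz_neg_EAcyc fun k => h (List.pairwise_cons.1 k).2]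

theorem nz_cs_cs_EAcyc (E : Subgroup G) (x : LV G) : nzEAcyc G (cs E (cs E x)) = 0 := by
  refine lin_eq_EAcyc (nzEAcyc G ∘ₗ cs E ∘ₗ cs E) 0 (fun l _ => ?_) (mem_univ_EAcyc x)
  simp only [LinearMap.comp_apply, LinearMap.zero_apply]
  rw [cs_single_EAcyc, cs_single_EAcyc]
  exact nz_neg_EAcyc fun k => lt_irrefl E ((List.pairwise_cons.1 k).1 E List.mem_cons_self)

theorem nz_dd_neg_EAcyc (l : List (Subgroup G)) (hw : l.Pairwise (· ≤ ·))
    (h : ¬ l.Pairwise (· < ·)) : nzEAcyc G (dd G (single l 1)) = 0 := by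
  induction l with
  | nil => exact absurd List.Pairwise.nil h
  | cons E l ih =>
    have hp := List.pairwise_cons.1 hw
    by_cases hl : l.Pairwise (· < ·)
    · have h1 : ¬ ∀ D ∈ l, E < D := fun k => h (List.pairwise_cons.2 ⟨k, hl⟩)
      push Not at h1
      obtain ⟨D, hD, hED⟩ := h1
      have e : E = D := (hp.1 D hD).eq_or_lt.resolve_right hED
      subst e
      obtain ⟨D', l', rfl⟩ := List.exists_cons_of_ne_nil (List.ne_nil_of_mem hD)
      have e' : D' = E := by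
        rcases List.mem_cons.1 hD with k | k
        · exact k.symm
        · exact le_antisymm ((List.pairwise_cons.1 hp.2).1 E k) (hp.1 D' List.mem_cons_self)
      subst e'
      rw [← cs_single_EAcyc, ← cs_single_EAcyc, dd_cs, dd_cs, map_sub (cs D'), sub_sub_cancel]
      exact nz_cs_cs_EAcyc _ _
    · rw [← cs_single_EAcyc, dd_cs, map_sub, nz_neg_EAcyc hl, nz_cs_EAcyc, ih hp.2 hl, map_zero,
        map_zero, sub_zero]

theorem nz_id_EAcyc {x : LV G} (hx : x ∈ supported ℚ ℚ {l : List (Subgroup G) | l.Pairwise (· < ·)}) :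
    nzEAcyc G x = x :=
  lin_eq_EAcyc (nzEAcyc G) LinearMap.id (fun _ hl => nz_pos_EAcyc hl) hx

theorem acyc_wk [Finite G] {P : Subgroup G} (h0 : P ≠ ⊥) (hP : IsPGroup 2 P) {x : LV G}
    (hx : x ∈ supported ℚ ℚ (WkIn P)) (hd : dd G x = 0) :
    ∃ y ∈ supported ℚ ℚ (WkIn P), dd G y = x := by
  obtain ⟨z, hzP, hz1, hz2, hc⟩ := exists_z_EAcyc h0 hP
  refine ⟨ss (zpowers z) ⊥ x, lin_mem_EAcyc _ (fun l hl => ?_) hx, ?_⟩
  · rw [ss, linearCombination_single, one_smul]
    refine supported_mono (fun m hm => hm.1) (sl_mem_EAcyc hzP hz1 hz2 hc l ⊥ bot_le ?_ ?_ hl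
      fun _ _ => bot_le)
    · intro a ha b hb
      rw [mem_bot.1 ha, one_mul, mul_one]
    · intro a ha
      rw [mem_bot.1 ha, one_pow]
  · have := dd_ss (zpowers z) ⊥ x
    rwa [hd, map_zero, add_zero] at this

theorem norm_wk {K : Subgroup G} {β y : LV G} (hβ : β ∈ supported ℚ ℚ (StIn 2 K))
    (hy : y ∈ supported ℚ ℚ (WkIn K)) (hd : dd G y = β) :
    ∃ y' ∈ supported ℚ ℚ (StIn 2 K), dd G y' = β := by
  refine ⟨nzEAcyc G y, lin_mem_EAcyc _ (fun l hl => ?_) hy, ?_⟩
  · by_cases h : l.Pairwise (· < ·)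
    · rw [nz_pos_EAcyc h]
      exact single_mem_supported ℚ _ ⟨h, hl.2⟩
    · rw [nz_neg_EAcyc h]
      exact Submodule.zero_mem _
  · have k := lin_eq_EAcyc (dd G ∘ₗ nzEAcyc G) (nzEAcyc G ∘ₗ dd G) (fun l hl => by
      simp only [LinearMap.comp_apply]
      by_cases h : l.Pairwise (· < ·)
      · rw [nz_pos_EAcyc h]
        exact (nz_id_EAcyc (dd_mem (fun a ha b hb => List.Pairwise.sublist hb ha)
          (single_mem_supported ℚ _ h))).symm
      · rw [nz_neg_EAcyc h, map_zero, nz_dd_neg_EAcyc l hl.1 h]) hy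
    simp only [LinearMap.comp_apply] at k
    rw [k, hd]
    exact nz_id_EAcyc (supported_mono (fun m hm => hm.1) hβ)

end Vale.Agent.P240
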