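import Vale.Agent.P240.E.Ops

/-! P240 E/Car. Acyclic carriers. Plan: define g on lists by recursion on the length (g [] = h0; for
l nonempty g l is a chosen y in Car l with dd y = f l + eps * sum of (-1)^i g (l.eraseIdx i) if it
exists), h = linearCombination g. Induction on the length: the right side lies in Car l and is a cycle
by hfd, the induction hypothesis extended linearly, and dd_dd. -/

namespace Vale.Agent.P240

open Subgroup Finsupp

theorem dd_ECar {G : Type*} [Group G] (φ : LV G →ₗ[ℚ] LV G) (l : List (Subgroup G)) :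
    φ (dd G (single l 1)) =
      ∑ i ∈ Finset.range l.length, (-1 : ℚ) ^ i • φ (single (l.eraseIdx i) 1) := by
  rw [dd, linearCombination_single, one_smul, map_sum]
  simp only [map_smul]

theorem carrier {G : Type*} [Group G] (S : Set (List (Subgroup G)))
    (hS : ∀ l ∈ S, ∀ l', l'.Sublist l → l' ∈ S) (Car : List (Subgroup G) → Submodule ℚ (LV G))
    (mono : ∀ l ∈ S, ∀ l', l'.Sublist l → Car l' ≤ Car l)
    (acyc : ∀ l ∈ S, l ≠ [] → ∀ x ∈ Car l, dd G x = 0 → ∃ y ∈ Car l, dd G y = x) (ε : ℚ)
    (f : LV G →ₗ[ℚ] LV G) (hf : ∀ l ∈ S, f (single l 1) ∈ Car l)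
    (hfd : ∀ l ∈ S, dd G (f (single l 1)) + ε • f (dd G (single l 1)) = 0) {h₀ : LV G}
    (h0 : h₀ ∈ Car []) (hd0 : dd G h₀ = f (single [] 1)) :
    ∃ h : LV G →ₗ[ℚ] LV G, h (single [] 1) = h₀ ∧ (∀ l ∈ S, h (single l 1) ∈ Car l) ∧
      ∀ x ∈ supported ℚ ℚ S, dd G (h x) = f x + ε • h (dd G x) := by
  obtain ⟨gg, g0, gs⟩ : ∃ gg : ℕ → List (Subgroup G) → LV G, (∀ l, gg 0 l = h₀) ∧
      ∀ n l, gg (n + 1) l = Classical.epsilon fun y => y ∈ Car l ∧
        dd G y = f (single l 1) + ε • linearCombination ℚ (gg n) (dd G (single l 1)) :=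
    ⟨fun n => Nat.rec (fun _ => h₀) (fun _ g l => Classical.epsilon fun y => y ∈ Car l ∧
      dd G y = f (single l 1) + ε • linearCombination ℚ g (dd G (single l 1))) n,
      fun _ => rfl, fun _ _ => rfl⟩
  obtain ⟨h, hh⟩ : ∃ h : LV G →ₗ[ℚ] LV G, ∀ l, h (single l 1) = gg l.length l :=
    ⟨linearCombination ℚ fun l => gg l.length l, fun l => by
      rw [linearCombination_single, one_smul]⟩
  have key : ∀ n, ∀ l ∈ S, l.length = n → h (single l 1) ∈ Car l ∧
      dd G (h (single l 1)) = f (single l 1) + ε • h (dd G (single l 1)) := by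
    intro n
    induction n with
    | zero =>
      intro l _ hl
      obtain rfl := List.length_eq_zero_iff.1 hl
      rw [hh, List.length_nil, g0, dd_nil, map_zero, smul_zero, add_zero]
      exact ⟨h0, hd0⟩
    | succ n ih =>
      intro l hl hn
      have a1 : ∀ i ∈ Finset.range l.length, (l.eraseIdx i).length = n := fun i hi => by
        rw [List.length_eraseIdx_of_lt (Finset.mem_range.1 hi), hn, Nat.add_sub_cancel]
      have a2 := fun i hi => ih _ (hS l hl _ (List.eraseIdx_sublist l i)) (a1 i hi)
      have a3 : linearCombination ℚ (gg n) (dd G (single l 1)) = h (dd G (single l 1)) := by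
        rw [dd_ECar, dd_ECar]
        exact Finset.sum_congr rfl fun i hi => by
          rw [hh, a1 i hi, linearCombination_single, one_smul]
      have a4 : h (dd G (single l 1)) ∈ Car l := by
        rw [dd_ECar]
        exact Submodule.sum_mem _ fun i hi => Submodule.smul_mem _ _
          (mono l hl _ (List.eraseIdx_sublist l i) (a2 i hi).1)
      have a5 : dd G (h (dd G (single l 1))) = f (dd G (single l 1)) := by
        have b1 := dd_ECar (dd G ∘ₗ h) l
        have b2 := dd_ECar (f + ε • h ∘ₗ dd G) l
        simp only [LinearMap.comp_apply, LinearMap.add_apply, LinearMap.smul_apply, dd_dd, map_zero,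
          smul_zero, add_zero] at b1 b2
        rw [b1, b2]
        exact Finset.sum_congr rfl fun i hi => by rw [(a2 i hi).2]
      rw [hh, hn, gs, a3]
      exact Classical.epsilon_spec (acyc l hl (fun e => by rw [e] at hn; simp at hn) _
        (add_mem (hf l hl) (Submodule.smul_mem _ _ a4)) (by rw [map_add, map_smul, a5, hfd l hl]))
  refine ⟨h, by rw [hh, List.length_nil, g0], fun l hl => (key _ l hl rfl).1, fun x hx => ?_⟩
  rw [supported_eq_span_single] at hx
  induction hx using Submodule.span_induction with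
  | mem x hx =>
    obtain ⟨l, hl, rfl⟩ := hx
    exact (key _ l hl rfl).2
  | zero => simp
  | add x y _ _ hx hy =>
    simp only [map_add, hx, hy, smul_add]
    abel
  | smul a x _ hx =>
    simp only [map_smul, hx, smul_add]
    rw [smul_comm]

end Vale.Agent.P240
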