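import Vale.Agent.P240.E.Def2

/-! P240 E/Comp. Components. Plan: norm_of_fix: L inf (conjugate of L) is subnormal in L
(IsSubnormal.smul or comap, subgroupOf, eq_bot_or_top_of_isSimpleGroup) and contains x, so L lies in
the conjugate; compare cardinalities. comp_comm: strong induction on Nat.card G generalizing G. If
U = top done. If L = top then U = bot or top. Else take proper normal X >= L, Y >= U
(exists_normal_and_le_and_lt_top_of_ne). In X: L <= X inf Y or they commute. In the first case apply
induction in Y. In the second, commutators of L and U lie in X inf Y, so the three subgroups lemma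
(Subgroup.commutator_commutator_eq_bot_of_rotate) and perfectness of L give the claim. -/

namespace Vale.Agent.P240

open Subgroup Finsupp

universe u

theorem norm_of_fix {G : Type*} [Group G] [Finite G] {L : Subgroup G} (hL : L.IsSubnormal)
    (hs : IsSimpleGroup L) {x g : G} (hx : x ∈ L) (h1 : x ≠ 1) (hg : g * x = x * g) :
    g ∈ normalizer (L : Set G) := by
  refine mem_normalizer_fintype fun y hy => ?_
  rcases IsSubnormal.eq_bot_or_top_of_isSimpleGroup hs
    (hL.comap (MulAut.conj g).toMonoidHom).subgroupOf with h | h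
  · have h2 : (⟨x, hx⟩ : L) ∈ (L.comap (MulAut.conj g).toMonoidHom).subgroupOf L := by
      change g * x * g⁻¹ ∈ L
      rwa [hg, mul_inv_cancel_right]
    rw [h, mem_bot] at h2
    exact absurd (congrArg Subtype.val h2) h1
  · exact subgroupOf_eq_top.1 h hy

theorem perf_EComp {G : Type*} [Group G] {L : Subgroup G} (hs : IsSimpleGroup L)
    (hna : ∃ x ∈ L, ∃ y ∈ L, x * y ≠ y * x) : ⁅L, L⁆ = L := by
  rw [← map_subtype_commutator]
  rcases (inferInstance : (_root_.commutator L).Normal).eq_bot_or_eq_top with h | h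
  · obtain ⟨x, hx, y, hy, h1⟩ := hna
    exact absurd (congrArg Subtype.val (mem_center_iff.1
      (((commutator_eq_bot_iff_center_eq_top L).1 h).ge (mem_top (⟨y, hy⟩ : L))) ⟨x, hx⟩)) h1
  · rw [h, ← MonoidHom.range_eq_map, range_subtype]

theorem up_EComp {G : Type*} [Group G] {L H M : Subgroup G} (hp : ⁅L, L⁆ = L)
    (hH : L ≤ normalizer (H : Set G)) (hM : M.IsSubnormal) (hL : L ≤ M)
    (h : H ⊓ M ≤ centralizer (L : Set G)) : H ≤ centralizer (L : Set G) := by
  induction hM with
  | top => exact (le_inf le_rfl le_top).trans h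
  | step M K h1 _ h2 ih =>
    refine ih (hL.trans h1) ?_
    have h3 : ⁅H ⊓ K, L⁆ ≤ H ⊓ M := le_inf
      ((commutator_mono inf_le_left le_rfl).trans (le_normalizer_iff_commutator_le_left.1 hH))
      ((commutator_mono inf_le_right hL).trans (le_normalizer_iff_commutator_le_right.1
        ((normal_subgroupOf_iff_le_normalizer h1).1 h2)))
    have h4 := commutator_eq_bot_iff_le_centralizer.2 (h3.trans h)
    have h5 := commutator_commutator_eq_bot_of_rotate (H₁ := L) (H₂ := L) (H₃ := H ⊓ K)
      (by rwa [commutator_comm L]) h4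
    rw [hp, commutator_comm] at h5
    exact commutator_eq_bot_iff_le_centralizer.1 h5

theorem comp_comm {G : Type u} [Group G] [Finite G] {L U : Subgroup G} (hL : L.IsSubnormal)
    (hs : IsSimpleGroup L) (hna : ∃ x ∈ L, ∃ y ∈ L, x * y ≠ y * x) (hU : U.IsSubnormal) :
    L ≤ U ∨ U ≤ centralizer (L : Set G) := by
  induction hU with
  | top => exact Or.inl le_top
  | step H K h1 _ h2 ih =>
    rcases ih with h | h
    · have h3 : L ≤ normalizer (H : Set G) := h.trans ((normal_subgroupOf_iff_le_normalizer h1).1 h2)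
      rcases (normal_subgroupOf_of_le_normalizer h3).eq_bot_or_eq_top with h4 | h4
      · refine Or.inr (up_EComp (perf_EComp hs hna) h3 hL le_rfl ?_)
        rw [(subgroupOf_eq_bot.1 h4).eq_bot]
        exact bot_le
      · exact Or.inl (subgroupOf_eq_top.1 h4)
    · exact Or.inr (h1.trans h)

theorem inf_cent {G : Type*} [Group G] {L : Subgroup G} (hs : IsSimpleGroup L)
    (hna : ∃ x ∈ L, ∃ y ∈ L, x * y ≠ y * x) : L ⊓ centralizer (L : Set G) = ⊥ := by
  refine eq_bot_iff.2 fun z hz => ?_
  rcases (inferInstance : (center L).Normal).eq_bot_or_eq_top with h | h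
  · have h1 : (⟨z, hz.1⟩ : L) ∈ center L :=
      mem_center_iff.2 fun y => Subtype.ext (mem_centralizer_iff.1 hz.2 y y.2)
    rw [h, mem_bot] at h1
    exact congrArg Subtype.val h1
  · obtain ⟨x, hx, y, hy, h1⟩ := hna
    exact absurd (congrArg Subtype.val
      (mem_center_iff.1 (h.ge (mem_top (⟨y, hy⟩ : L))) ⟨x, hx⟩)) h1

end Vale.Agent.P240
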