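import Vale.Agent.P240.E.Op
import Vale.Agent.P240.E.Comp

/-! P240 E/Cent. O_2 of the centralizer of a component is trivial. Plan: let C be the centralizer, P a
normal 2-subgroup of C. Each conjugate L' of L is L or lies in C (comp_comm, cardinality). In the
second case apply comp_comm inside the group C to L'.subgroupOf C and the normal subgroup
P.subgroupOf C: L' <= P is impossible (a nontrivial finite 2-group has nontrivial centre, inf_cent),
so P centralizes L'. Hence P <= C0 = centralizer of all conjugates, normal in G and inside C. So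
P <= O from exists_op C0; conjugates of O have the same property, so O is normal in G and trivial. -/

namespace Vale.Agent.P240

open Subgroup Finsupp

theorem sub_ECent {G : Type*} [Group G] [Finite G] {L C P : Subgroup G} (hL : L.IsSubnormal)
    (hs : IsSimpleGroup L) (hna : ∃ x ∈ L, ∃ y ∈ L, x * y ≠ y * x) (hLC : L ≤ C) (hPC : P ≤ C)
    (hP : IsPGroup 2 P) (hN : C ≤ normalizer P) : P ≤ centralizer (L : Set G) := by
  have hn : (P.subgroupOf C).Normal := (normal_subgroupOf_iff_le_normalizer hPC).2 hN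
  have hs' : IsSimpleGroup (L.subgroupOf C) := (subgroupOfEquivOfLe hLC).isSimpleGroup
  have hna' : ∃ x ∈ L.subgroupOf C, ∃ y ∈ L.subgroupOf C, x * y ≠ y * x := by
    obtain ⟨x, hx, y, hy, h⟩ := hna
    exact ⟨⟨x, hLC hx⟩, hx, ⟨y, hLC hy⟩, hy, fun e => h (congrArg Subtype.val e)⟩
  rcases comp_comm hL.subgroupOf hs' hna' hn.isSubnormal with h | h
  · exfalso
    have hLP : L ≤ P := fun x hx => h (show (⟨x, hLC hx⟩ : C) ∈ L.subgroupOf C from hx)
    have h2 : IsPGroup 2 L := hP.to_le hLP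
    have : Fact (Nat.Prime 2) := ⟨Nat.prime_two⟩
    have := h2.center_nontrivial
    obtain ⟨z, hz⟩ := exists_ne (1 : center L)
    have hm : ((z : L) : G) ∈ L ⊓ centralizer (L : Set G) := by
      refine ⟨(z : L).2, fun y hy => ?_⟩
      exact congrArg Subtype.val (mem_center_iff.1 z.2 ⟨y, hy⟩)
    rw [inf_cent hs hna, mem_bot] at hm
    exact hz (Subtype.ext (Subtype.ext hm))
  · intro x hx y hy
    have h1 : (⟨x, hPC hx⟩ : C) ∈ centralizer ((L.subgroupOf C : Subgroup C) : Set C) :=
      h (show (⟨x, hPC hx⟩ : C) ∈ P.subgroupOf C from hx)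
    exact congrArg Subtype.val (h1 ⟨y, hLC hy⟩ hy)

theorem conj_ECent {G : Type*} [Group G] [Finite G] {L P : Subgroup G} (hL : L.IsSubnormal)
    (hs : IsSimpleGroup L) (hna : ∃ x ∈ L, ∃ y ∈ L, x * y ≠ y * x)
    (hPC : P ≤ centralizer (L : Set G)) (hP : IsPGroup 2 P)
    (hN : centralizer (L : Set G) ≤ normalizer P) (f : G ≃* G) :
    P ≤ centralizer ((L.map (f : G →* G) : Subgroup G) : Set G) := by
  have hL' : (L.map (f : G →* G)).IsSubnormal := hL.map f.surjective
  have e := L.equivMapOfInjective (f : G →* G) f.injective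
  rcases comp_comm hL hs hna hL' with h | h
  · rw [← eq_of_le_of_card_ge h (Nat.card_congr e.toEquiv).ge]
    exact hPC
  · refine sub_ECent hL' e.symm.isSimpleGroup ?_ h hPC hP hN
    obtain ⟨x, hx, y, hy, h⟩ := hna
    refine ⟨f x, mem_map_of_mem _ hx, f y, mem_map_of_mem _ hy, fun e => h (f.injective ?_)⟩
    rw [map_mul, map_mul, e]

theorem norm_ECent {G : Type*} [Group G] [Finite G] {Y P : Subgroup G} (hY : Y.Normal)
    (hO : NoOp 2 (⊤ : Subgroup G)) (hPY : P ≤ Y) (hP : IsPGroup 2 P) (hN : Y ≤ normalizer P) :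
    P = ⊥ := by
  obtain ⟨O, ⟨h1, h2, h3⟩, h4⟩ := exists_op Y
  have hn : O.Normal := by
    refine ⟨fun x hx g => ?_⟩
    have h5 : O.map (MulAut.conj g).toMonoidHom ≤ O := by
      refine h4 _ ?_ (h2.map _) ?_
      · rintro _ ⟨y, hy, rfl⟩
        exact hY.conj_mem _ (h1 hy) g
      · refine le_trans (fun c hc => ?_) (le_normalizer_map _)
        refine ⟨g⁻¹ * c * g⁻¹⁻¹, h3 (hY.conj_mem _ hc g⁻¹), ?_⟩
        simp [mul_assoc]
    exact h5 ⟨x, hx, rfl⟩
  have h6 : O = ⊥ := hO O le_top h2 (normalizer_eq_top O).ge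
  exact eq_bot_iff.2 (h6 ▸ h4 P hPY hP hN)

theorem noOp_cent {G : Type*} [Group G] [Finite G] {L : Subgroup G} (hL : L.IsSubnormal)
    (hs : IsSimpleGroup L) (hna : ∃ x ∈ L, ∃ y ∈ L, x * y ≠ y * x)
    (hO : NoOp 2 (⊤ : Subgroup G)) : NoOp 2 (centralizer (L : Set G)) := by
  intro P hPC hP hN
  have hle : centralizer ((normalClosure (L : Set G) : Subgroup G) : Set G) ≤
      centralizer (L : Set G) := centralizer_le subset_normalClosure
  refine norm_ECent (Y := centralizer ((normalClosure (L : Set G) : Subgroup G) : Set G))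
    inferInstance hO ?_ hP (hle.trans hN)
  rw [normalClosure, centralizer_closure]
  intro x hx y hy
  obtain ⟨l, hl, hc⟩ := Group.mem_conjugatesOfSet_iff.1 hy
  obtain ⟨g, rfl⟩ := isConj_iff.1 hc
  exact conj_ECent hL hs hna hPC hP hN (MulAut.conj g) hx _ ⟨l, hl, rfl⟩

end Vale.Agent.P240
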