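import Vale.Agent.P240.E.Def2

/-! P240 E/CoNe. Plan: fl bot (ofFn t) = ofFn (flag t). Lemma A: equal lengths and co Fs E ts nonzero
give E sup closure {t in ts} = Fs.getLastD E. Lemma B: equal lengths and (ts[j] in Fs[k] implies
j <= k) give co Fs E ts = if Fs = fl E ts then 1 else 0 (only the term i = 0 survives at each step).
So every gamma with c gamma and co nonzero has co = 1 and c gamma = c gamma0 (det1, det2), and gamma0
is one of them; multiply the sum by c gamma0 and use positivity. -/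

namespace Vale.Agent.P240

open Subgroup Finsupp

variable {G : Type*} [Group G]

theorem fl_gen_ECoNe {m : ℕ} (t : Fin m → G) (E : Subgroup G) :
    fl E (List.ofFn t) = List.ofFn fun i => E ⊔ flag t i := by
  induction m generalizing E with
  | zero => simp [fl]
  | succ m ih =>
    have e0 : Set.Iic (0 : Fin (m + 1)) = {0} := by
      ext x
      simp
    rw [List.ofFn_succ, List.ofFn_succ, fl, ih, flag, e0, Set.image_singleton, zpowers_eq_closure]
    refine congrArg _ (congrArg _ (funext fun i => ?_))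
    rw [flag, flag, sup_assoc, ← Subgroup.closure_union]
    refine congrArg (fun S => E ⊔ closure S) (Set.ext fun x => ⟨?_, ?_⟩)
    · rintro (rfl | ⟨j, hj, rfl⟩)
      · exact ⟨0, Fin.zero_le _, rfl⟩
      · exact ⟨j.succ, Fin.succ_le_succ_iff.2 hj, rfl⟩
    · rintro ⟨j, hj, rfl⟩
      induction j using Fin.cases with
      | zero => exact Or.inl rfl
      | succ j => exact Or.inr ⟨j, Fin.succ_le_succ_iff.1 hj, rfl⟩

theorem fl_ofFn {m : ℕ} (t : Fin m → G) : fl ⊥ (List.ofFn t) = List.ofFn (flag t) := by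
  simp only [fl_gen_ECoNe, bot_sup_eq]

theorem cl_cons_ECoNe (E : Subgroup G) (t : G) (ts : List G) :
    E ⊔ zpowers t ⊔ closure {x | x ∈ ts} = E ⊔ closure {x | x ∈ t :: ts} := by
  rw [sup_assoc, zpowers_eq_closure, ← Subgroup.closure_union]
  refine congrArg (fun S => E ⊔ closure S) (Set.ext fun x => ?_)
  simp

theorem fl_last (E : Subgroup G) (ts : List G) :
    (fl E ts).getLastD E = E ⊔ closure {t | t ∈ ts} := by
  induction ts generalizing E with
  | nil => simp [fl]
  | cons t ts ih => rw [fl, List.getLastD_cons, ih, cl_cons_ECoNe]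

open Classical in
theorem co_last_ECoNe (Fs : List (Subgroup G)) (E : Subgroup G) (ts : List G)
    (hl : Fs.length = ts.length) (h : co Fs E ts ≠ 0) :
    Fs.getLastD E = E ⊔ closure {t | t ∈ ts} := by
  induction Fs generalizing E ts with
  | nil =>
    obtain rfl := List.length_eq_zero_iff.1 hl.symm
    simp
  | cons F Fs ih =>
    rw [co] at h
    obtain ⟨i, hi, h⟩ := Finset.exists_ne_zero_of_sum_ne_zero h
    rw [Finset.mem_range] at hi
    obtain ⟨e, h⟩ := ite_ne_right_iff.1 (right_ne_zero_of_mul h)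
    rw [List.getLastD_cons, ih F _ (by
      rw [List.length_eraseIdx_of_lt hi, ← hl]
      rfl) h, e, cl_cons_ECoNe, List.getD_eq_getElem _ _ hi]
    exact congrArg (fun S => E ⊔ closure S)
      (Set.ext fun x => (List.getElem_cons_eraseIdx_perm hi).mem_iff)

open Classical in
theorem co_eq_ECoNe (Fs : List (Subgroup G)) (E : Subgroup G) (ts : List G)
    (hl : Fs.length = ts.length)
    (h : ∀ j < ts.length, ∀ k < Fs.length, ts.getD j 1 ∈ Fs.getD k ⊥ → j ≤ k) :
    co Fs E ts = if Fs = fl E ts then 1 else 0 := by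
  induction Fs generalizing E ts with
  | nil =>
    obtain rfl := List.length_eq_zero_iff.1 hl.symm
    simp [co, fl]
  | cons F Fs ih =>
    obtain _ | ⟨t, ts⟩ := ts
    · simp at hl
    rw [co, Finset.sum_eq_single_of_mem 0 (by simp) fun i hi h0 => by
      rw [if_neg, mul_zero]
      rintro rfl
      exact h0 (Nat.le_zero.1 (h i (Finset.mem_range.1 hi) 0 (Nat.succ_pos _)
        (mem_sup_right (mem_zpowers _))))]
    rw [pow_zero, one_mul, List.getD_cons_zero, List.eraseIdx_cons_zero, fl,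
      ih F ts (Nat.succ_injective hl) fun j hj k hk hm => Nat.le_of_succ_le_succ
        (h (j + 1) (Nat.succ_lt_succ hj) (k + 1) (Nat.succ_lt_succ hk) hm)]
    by_cases e : F = E ⊔ zpowers t
    · subst e
      simp
    · simp [e]

theorem Sys.co_ne {m : ℕ} {Γ : Type*} [Fintype Γ] {τ : Γ → Fin m → G} {c : Γ → ℚ} {γ₀ : Γ}
    (h : Sys τ c γ₀) : ∑ γ, c γ * co (fl ⊥ (List.ofFn (τ γ₀))) ⊥ (List.ofFn (τ γ)) ≠ 0 := by
  classical
  have B : ∀ γ, c γ ≠ 0 → closure (Set.range (τ γ)) = closure (Set.range (τ γ₀)) →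
      co (fl ⊥ (List.ofFn (τ γ₀))) ⊥ (List.ofFn (τ γ)) =
        if flag (τ γ₀) = flag (τ γ) then 1 else 0 := fun γ h1 h2 => by
    rw [co_eq_ECoNe _ _ _ (by simp [fl_ofFn]) fun j hj k hk hm => ?_, fl_ofFn, fl_ofFn]
    · simp only [List.ofFn_inj]
    · rw [List.getD_eq_getElem _ _ hj, List.getD_eq_getElem _ _ hk] at hm
      simp only [fl_ofFn, List.getElem_ofFn] at hm
      exact h.det1 γ h1 h2 _ _ hm
  refine right_ne_zero_of_mul (a := c γ₀) (ne_of_gt ?_)
  rw [Finset.mul_sum]
  refine Finset.sum_pos' (fun γ _ => ?_) ⟨γ₀, Finset.mem_univ _, ?_⟩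
  · by_cases h1 : c γ = 0
    · simp [h1]
    by_cases h0 : co (fl ⊥ (List.ofFn (τ γ₀))) ⊥ (List.ofFn (τ γ)) = 0
    · simp [h0]
    have h2 := (co_last_ECoNe _ _ _ (by simp [fl_ofFn]) h0).symm.trans (fl_last _ _)
    simp only [bot_sup_eq, List.mem_ofFn] at h2
    rw [B γ h1 h2] at h0 ⊢
    have e : flag (τ γ₀) = flag (τ γ) := not_not.1 fun e => h0 (if_neg e)
    rw [if_pos e, mul_one, h.det2 γ h1 h2 fun j =>
      (congrFun e j).ge (subset_closure ⟨j, Set.mem_Iic.2 le_rfl, rfl⟩)]
    exact mul_self_nonneg _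
  · rw [B γ₀ h.ne rfl, if_pos rfl, mul_one]
    exact mul_self_pos.2 h.ne

end Vale.Agent.P240
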