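import Vale.Agent.P240.E.Ops

/-! P240 E/Coef. Plan: first, by induction on ts with strip_ss, mu_ss:
strip F (SS E ts x) = sum over i of (-1)^i (if F = E sup zpowers (ts.getD i 1) then
SS F (ts.eraseIdx i) (mu (zpowers (ts.getD i 1)) x) else 0) + (-1)^length SS F ts (strip F x)
(use mu T (SS E ts x) = SS (E sup T) ts (mu T x)). For x = mu E beta, strip F x = 0 since an entry
D sup E = F <= H forces D <= H inf K = bot. Then induction on Fs generalizing E, ts. -/

namespace Vale.Agent.P240

open Subgroup Finsupp

theorem mu_SS_ECoef {G : Type*} [Group G] (T E : Subgroup G) (ts : List G) (x : LV G) :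
    mu T (SS E ts x) = SS (E ⊔ T) ts (mu T x) := by
  induction ts with
  | nil => rfl
  | cons t ts ih => simp only [SS, LinearMap.comp_apply, mu_ss, ih]

open Classical in
theorem strip_SS_ECoef {G : Type*} [Group G] (F E : Subgroup G) (ts : List G) (x : LV G) :
    strip F (SS E ts x) = ∑ i ∈ Finset.range ts.length, (-1 : ℚ) ^ i •
      (if F = E ⊔ zpowers (ts.getD i 1) then
        SS F (ts.eraseIdx i) (mu (zpowers (ts.getD i 1)) x) else 0) +
      (-1 : ℚ) ^ ts.length • SS F ts (strip F x) := by
  induction ts with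
  | nil => simp [SS]
  | cons t ts ih =>
    have e : SS E (t :: ts) x = ss (zpowers t) E (SS E ts x) := rfl
    have e' : ∀ (l : List G) (y : LV G), SS F (t :: l) y = ss (zpowers t) F (SS F l y) :=
      fun _ _ => rfl
    rw [e, strip_ss, ih, List.length_cons, Finset.sum_range_succ', mu_SS_ECoef]
    simp only [List.getD_cons_succ, List.getD_cons_zero, List.eraseIdx_cons_succ,
      List.eraseIdx_cons_zero, e', map_add, map_sum, map_smul, pow_zero, one_smul, pow_succ,
      mul_neg, mul_one, neg_smul, Finset.sum_neg_distrib, apply_ite (ss (zpowers t) F), map_zero]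
    have e2 : (if F = E ⊔ zpowers t then SS (E ⊔ zpowers t) ts (mu (zpowers t) x) else 0) =
        if F = E ⊔ zpowers t then SS F ts (mu (zpowers t) x) else 0 := by
      split_ifs with h
      · rw [h]
      · rfl
    rw [e2]
    abel

theorem strip_mu_ECoef {G : Type*} [Group G] {H K : Subgroup G} (hd : H ⊓ K = ⊥) {β : LV G}
    (hβ : β ∈ supported ℚ ℚ (StIn 2 K)) {F : Subgroup G} (hF : F ≤ H) (E : Subgroup G) :
    strip F (mu E β) = 0 := by
  rw [supported_eq_span_single] at hβ
  induction hβ using Submodule.span_induction with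
  | mem x hx =>
    obtain ⟨l, hl, rfl⟩ := hx
    simp only [mu, strip, lmapDomain_apply, mapDomain_single, linearCombination_single, one_smul]
    cases l with
    | nil => rfl
    | cons D l =>
      have h1 := hl.2 D List.mem_cons_self
      rw [List.map_cons, stl, if_neg]
      rintro rfl
      exact h1.1.1 (le_bot_iff.1 (hd ▸ le_inf (le_sup_left.trans hF) h1.2))
  | zero => simp
  | add x y _ _ hx hy => rw [map_add, map_add, hx, hy, add_zero]
  | smul c x _ hx => rw [map_smul, map_smul, hx, smul_zero]

theorem STR_SS {G : Type*} [Group G] {H K : Subgroup G} (hd : H ⊓ K = ⊥) {β : LV G}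
    (hβ : β ∈ supported ℚ ℚ (StIn 2 K)) (Fs : List (Subgroup G)) (hF : ∀ F ∈ Fs, F ≤ H)
    (E : Subgroup G) (ts : List G) (hl : ts.length = Fs.length) :
    STR Fs (SS E ts (mu E β)) = co Fs E ts • mu (Fs.getLastD E) β := by
  induction Fs generalizing E ts with
  | nil =>
    obtain rfl := List.length_eq_zero_iff.1 hl
    simp [STR, SS, co]
  | cons F Fs ih =>
    have e : STR (F :: Fs) (SS E ts (mu E β)) = STR Fs (strip F (SS E ts (mu E β))) := rfl
    rw [e, strip_SS_ECoef, strip_mu_ECoef hd hβ (hF F List.mem_cons_self), map_zero, smul_zero,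
      add_zero, map_sum, co, Finset.sum_smul, List.getLastD_cons]
    refine Finset.sum_congr rfl fun i hi => ?_
    rw [map_smul, mul_smul]
    split_ifs with h
    · rw [mu_mu, ← h, ih (fun F' hF' => hF F' (List.mem_cons_of_mem _ hF')) F]
      rw [List.length_eraseIdx_of_lt (Finset.mem_range.1 hi), hl, List.length_cons,
        Nat.add_sub_cancel]
    · rw [map_zero, zero_smul]

end Vale.Agent.P240
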