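import Vale.Agent.P240.E.Def2

/-! P240 E/Op. The largest normal 2-subgroup and the carrier groups. Plan: exists_op: a maximal
element of the finite set of such P (bot belongs to it); the join of two of them is again one
(IsPGroup.to_sup_of_normal_left' or similar). exists_hc: choose O Y by exists_op, Hc l = foldr of
joins of O (C inf centralizer E); for E <= E' the group C inf centralizer E' lies in
C inf centralizer E, which normalizes O (C inf centralizer E); induction on the list. For the last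
item D is central in C inf centralizer (D sup A). -/

namespace Vale.Agent.P240

open Subgroup Finsupp

variable {G : Type*} [Group G]

theorem exists_op [Finite G] (Y : Subgroup G) :
    ∃ O : Subgroup G, (O ≤ Y ∧ IsPGroup 2 O ∧ Y ≤ normalizer O) ∧
      ∀ P : Subgroup G, P ≤ Y → IsPGroup 2 P → Y ≤ normalizer P → P ≤ O := by
  have hne : {P : Subgroup G | P ≤ Y ∧ IsPGroup 2 P ∧ Y ≤ normalizer P}.Nonempty :=
    ⟨⊥, bot_le, IsPGroup.of_bot, le_normalizer_of_normal⟩
  obtain ⟨O, hO, hm⟩ := (Set.toFinite _).exists_maximal hne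
  refine ⟨O, hO, fun P h1 h2 h3 => le_sup_right.trans (hm (y := O ⊔ P) ⟨sup_le hO.1 h1,
    hO.2.1.to_sup_of_normal_left' h2 (h1.trans hO.2.2),
    (le_inf hO.2.2 h3).trans (normalizer_inf_normalizer_le_normalizer_sup O P)⟩ le_sup_left)⟩

theorem fold_le_EOp (O : Subgroup G → Subgroup G) (l : List (Subgroup G)) (K : Subgroup G) :
    l.foldr (fun E H => O E ⊔ H) ⊥ ≤ K ↔ ∀ E ∈ l, O E ≤ K := by
  induction l with
  | nil => simp
  | cons E l ih => rw [List.foldr_cons, sup_le_iff, ih, List.forall_mem_cons]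

theorem exists_hc [Finite G] (C A : Subgroup G)
    (hW : ∀ E, IsEA 2 E → A < E → ¬NoOp 2 (C ⊓ centralizer E)) :
    ∃ Hc : List (Subgroup G) → Subgroup G, (∀ l l', l'.Sublist l → Hc l' ≤ Hc l) ∧
      (∀ l ∈ StAb A, IsPGroup 2 (Hc l) ∧ Hc l ≤ C ⊓ centralizer A ∧ (l ≠ [] → Hc l ≠ ⊥)) ∧
      ∀ l D, IsEA 2 D → D ≤ C ⊓ centralizer A → D ⊔ A ∈ l → D ≤ Hc l := by
  choose O h1 h2 using exists_op (G := G)
  have hle := fold_le_EOp fun E => O (C ⊓ centralizer E)
  have hmem : ∀ (l : List (Subgroup G)) (E : Subgroup G), E ∈ l → O (C ⊓ centralizer E) ≤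
      l.foldr (fun (E H : Subgroup G) => O (C ⊓ centralizer E) ⊔ H) ⊥ := fun l => (hle l _).1 le_rfl
  have hc : ∀ {E E' : Subgroup G}, E ≤ E' → O (C ⊓ centralizer E') ≤ C ⊓ centralizer E :=
    fun h => (h1 _).1.trans (inf_le_inf_left C (centralizer_le h))
  refine ⟨fun l => l.foldr (fun (E H : Subgroup G) => O (C ⊓ centralizer E) ⊔ H) ⊥,
    fun l l' h => (hle l' _).2 fun E hE => hmem l E (h.subset hE), fun l hl => ⟨?_, ?_, ?_⟩,
    fun l D hD hDC hl => le_trans (h2 _ D ?_ ?_ ?_) (hmem l _ hl)⟩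
  · have hp := hl.1
    clear hl
    induction l with
    | nil => exact IsPGroup.of_bot
    | cons E l ih =>
      rw [List.pairwise_cons] at hp
      exact (h1 _).2.1.to_sup_of_normal_left' (ih hp.2)
        (le_trans ((hle l _).2 fun E' hE' => hc (hp.1 E' hE').le) (h1 _).2.2)
  · exact (hle l _).2 fun E hE => hc (hl.2 E hE).2.le
  · intro hn h0
    obtain ⟨E, hE⟩ := List.exists_mem_of_ne_nil l hn
    refine hW E (hl.2 E hE).1 (hl.2 E hE).2 fun P k1 k2 k3 => ?_
    exact le_bot_iff.1 ((h2 _ P k1 k2 k3).trans ((hmem l E hE).trans h0.le))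
  · refine le_inf (hDC.trans inf_le_left) (le_centralizer_iff.1 (sup_le ?_ ?_))
    · exact fun x hx y hy => hD.2.1 y hy x hx
    · exact le_centralizer_iff.1 (hDC.trans inf_le_right)
  · exact fun g => ⟨1, Subtype.ext (by simpa using hD.2.2 g g.2)⟩
  · exact inf_le_right.trans ((centralizer_le (show (D : Set G) ⊆ (D ⊔ A : Subgroup G) from
      le_sup_left (a := D) (b := A))).trans (centralizer_le_normalizer _))

end Vale.Agent.P240
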