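import Vale.Agent.P240.E.Acyc
import Vale.Agent.P240.E.Car
import Vale.Agent.P240.E.Op

/-! P240 E/Inj. Homology of A_2(K) injects into the homology of the chains above A. Plan: Hc from
exists_hc, Car l = supported (WkIn (Hc l)). carrier with S = StAb A, f = 0, eps = 1, h0 = single [] 1
gives a chain map rho. For l in StIn 2 K the list l.map (sup A) is in StAb A ((D sup A) inf C = D, as
D and A commute and A inf C = bot). carrier with S = StIn 2 K, Car' l = Car (l.map ..), eps = -1,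
f = rho comp mu A - id, h0 = 0 gives dd (h beta) = rho (mu A beta) - beta = dd (rho y) - beta. All is
supported on WkIn K; finish with norm_wk. -/

namespace Vale.Agent.P240

open Subgroup Finsupp

section

variable {G : Type*} [Group G]

theorem ext_EInj {S : Set (List (Subgroup G))} {h : LV G →ₗ[ℚ] LV G} {M : Submodule ℚ (LV G)}
    (hM : ∀ l ∈ S, h (single l 1) ∈ M) {x : LV G} (hx : x ∈ supported ℚ ℚ S) : h x ∈ M := by
  rw [supported_eq_span_single] at hx
  refine (Submodule.span_le (p := M.comap h)).2 ?_ hx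
  rintro _ ⟨l, hl, rfl⟩
  exact hM l hl

theorem wk_EInj {K K' : Subgroup G} (h : K ≤ K') :
    supported ℚ ℚ (WkIn K) ≤ supported ℚ ℚ (WkIn K') :=
  supported_mono fun _ hl => ⟨hl.1, fun E hE => ⟨(hl.2 E hE).1, (hl.2 E hE).2.trans h⟩⟩

theorem mem_EInj {A D : Subgroup G} (hD : D ≤ centralizer A) {x : G} (hx : x ∈ D ⊔ A) :
    ∃ d ∈ D, ∃ a ∈ A, d * a = x := by
  have h := coe_mul_of_left_le_normalizer_right D A (hD.trans (centralizer_le_normalizer _))
  have h2 : x ∈ ((D ⊔ A : Subgroup G) : Set G) := hx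
  rw [h] at h2
  exact h2

theorem inf_EInj {C A D : Subgroup G} (hAC : A ⊓ C = ⊥) (hD : D ≤ C ⊓ centralizer A) :
    (D ⊔ A) ⊓ C = D := by
  refine le_antisymm (fun x hx => ?_) (le_inf le_sup_left (hD.trans inf_le_left))
  obtain ⟨d, hd, a, ha, rfl⟩ := mem_EInj (hD.trans inf_le_right) hx.1
  have h : a ∈ A ⊓ C := ⟨ha, (C.mul_mem_cancel_left (hD hd).1).1 hx.2⟩
  rw [hAC, mem_bot] at h
  rwa [h, mul_one]

theorem ab_EInj {C A : Subgroup G} (hA : IsEA 2 A) (hAC : A ⊓ C = ⊥) {l : List (Subgroup G)}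
    (hl : l ∈ StIn 2 (C ⊓ centralizer A)) : l.map (· ⊔ A) ∈ StAb A := by
  refine ⟨List.pairwise_map.2 (hl.1.imp_of_mem fun {D D'} h1 h2 h => ?_), fun E hE => ?_⟩
  · refine lt_of_le_of_ne (sup_le_sup_right h.le _) fun e => h.ne ?_
    rw [← inf_EInj hAC (hl.2 D h1).2, e, inf_EInj hAC (hl.2 D' h2).2]
  · obtain ⟨D, hD, rfl⟩ := List.mem_map.1 hE
    obtain ⟨⟨d0, d1, d2⟩, d3⟩ := hl.2 D hD
    have hc : ∀ d ∈ D, ∀ a ∈ A, Commute a d := fun d hd a ha => (d3 hd).2 a ha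
    refine ⟨⟨fun e => d0 (le_bot_iff.1 (le_sup_left.trans e.le)), fun x hx y hy => ?_,
      fun x hx => ?_⟩, lt_of_le_of_ne le_sup_right fun e => d0 ?_⟩
    · obtain ⟨d, hd, a, ha, rfl⟩ := mem_EInj (d3.trans inf_le_right) hx
      obtain ⟨d', hd', a', ha', rfl⟩ := mem_EInj (d3.trans inf_le_right) hy
      exact (Commute.mul_left (Commute.mul_right (d1 d hd d' hd') (hc d hd a' ha').symm)
        (Commute.mul_right (hc d' hd' a ha) (hA.2.1 a ha a' ha'))).eq
    · obtain ⟨d, hd, a, ha, rfl⟩ := mem_EInj (d3.trans inf_le_right) hx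
      rw [(hc d hd a ha).symm.mul_pow, d2 d hd, hA.2.2 a ha, mul_one]
    · rw [← inf_EInj hAC d3, ← e, hAC]

theorem mu_EInj (A : Subgroup G) (l : List (Subgroup G)) :
    mu A (single l 1) = single (l.map (· ⊔ A)) 1 := by
  rw [mu, lmapDomain_apply, mapDomain_single]

end

theorem inj_W {G : Type*} [Group G] [Finite G] (C A : Subgroup G) (hA : IsEA 2 A)
    (hAC : A ⊓ C = ⊥) (hW : ∀ E, IsEA 2 E → A < E → ¬NoOp 2 (C ⊓ centralizer E)) {β y : LV G}
    (hβ : β ∈ supported ℚ ℚ (StIn 2 (C ⊓ centralizer A))) (hd : dd G β = 0)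
    (hy : y ∈ supported ℚ ℚ (StAb A)) (hyβ : dd G y = mu A β) :
    ∃ y' ∈ supported ℚ ℚ (StIn 2 (C ⊓ centralizer A)), dd G y' = β := by
  obtain ⟨Hc, m1, m2, m3⟩ := exists_hc C A hW
  obtain ⟨ρ, r0, r1, r2⟩ := carrier (StAb A)
    (fun l hl l' h => ⟨hl.1.sublist h, fun E hE => hl.2 E (h.subset hE)⟩)
    (fun l => supported ℚ ℚ (WkIn (Hc l))) (fun l _ l' h => wk_EInj (m1 l l' h))
    (fun l hl h0 x hx h => acyc_wk ((m2 l hl).2.2 h0) (m2 l hl).1 hx h) 1 0
    (fun _ _ => zero_mem _) (fun _ _ => by simp) (h₀ := single [] 1)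
    (single_mem_supported _ _ ⟨List.Pairwise.nil, by simp⟩) dd_nil
  simp only [LinearMap.zero_apply, one_smul, zero_add] at r2
  obtain ⟨h, -, h1, h2⟩ := carrier (StIn 2 (C ⊓ centralizer A))
    (fun l hl l' h => ⟨hl.1.sublist h, fun E hE => hl.2 E (h.subset hE)⟩)
    (fun l => supported ℚ ℚ (WkIn (Hc (l.map (· ⊔ A)))))
    (fun l _ l' h => wk_EInj (m1 _ _ (h.map _)))
    (fun l hl h0 x hx h => acyc_wk ((m2 _ (ab_EInj hA hAC hl)).2.2 (by simpa using h0))
      (m2 _ (ab_EInj hA hAC hl)).1 hx h) (-1) (ρ ∘ₗ mu A - LinearMap.id)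
    (fun l hl => by
      rw [LinearMap.sub_apply, LinearMap.comp_apply, mu_EInj]
      refine sub_mem (r1 _ (ab_EInj hA hAC hl)) (single_mem_supported _ _
        ⟨hl.1.imp le_of_lt, fun D hD => ⟨(hl.2 D hD).1, ?_⟩⟩)
      exact m3 _ D (hl.2 D hD).1 (hl.2 D hD).2 (List.mem_map_of_mem hD))
    (fun l hl => by
      have h3 := r2 _ (single_mem_supported ℚ (1 : ℚ) (ab_EInj hA hAC hl))
      rw [← mu_EInj, dd_mu] at h3
      simp only [LinearMap.sub_apply, LinearMap.comp_apply, LinearMap.id_apply, map_sub, h3,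
        neg_smul, one_smul, add_neg_cancel])
    (h₀ := 0) (zero_mem _) (by
      rw [LinearMap.sub_apply, LinearMap.comp_apply, mu_EInj, List.map_nil, r0, map_zero,
        LinearMap.id_apply, sub_self])
  refine norm_wk (y := ρ y - h β) hβ (sub_mem
    (ext_EInj (fun l hl => wk_EInj (m2 l hl).2.1 (r1 l hl)) hy)
    (ext_EInj (fun l hl => wk_EInj (m2 _ (ab_EInj hA hAC hl)).2.1 (h1 l hl)) hβ)) ?_
  rw [map_sub, r2 y hy, h2 β hβ, hd, hyβ, map_zero, smul_zero, add_zero, LinearMap.sub_apply,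
    LinearMap.comp_apply, LinearMap.id_apply, sub_sub_cancel]

end Vale.Agent.P240
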