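import Vale.Agent.P240.E.Comp

/-! P240 E/Max. Plan: exists_max: maximize Nat.card (L sup A) over Outer A with NoOp (A = bot works).
above_max: C = centralizer L. Elements of L sup A are l a and of L sup C are n c. (1) both sides equal
C inf centralizer (L sup A). (2) l a in C gives a in L sup C, so a in L, and inf_cent. (3) if E inf C
is nontrivial it is central in C inf centralizer E. Otherwise Outer L E: norm_of_fix; for n c in E the
element n commutes with E0 and squares to one (E0 normalizes L and C, L inf C = bot), so n in E0 and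
c = 1; L sup A < L sup E by hmaxE; apply hmax. -/

namespace Vale.Agent.P240

open Subgroup Finsupp

variable {G : Type*} [Group G]

theorem cent_EMax (L X : Subgroup G) : centralizer (L : Set G) ⊓ centralizer X =
    centralizer ((L ⊔ X : Subgroup G) : Set G) := by
  refine le_antisymm (le_centralizer_iff.1 (sup_le ?_ ?_)) (le_inf ?_ ?_)
  · exact le_centralizer_iff.1 inf_le_left
  · exact le_centralizer_iff.1 inf_le_right
  · exact centralizer_le (SetLike.coe_subset_coe.2 le_sup_left)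
  · exact centralizer_le (SetLike.coe_subset_coe.2 le_sup_right)

theorem dec_EMax {L X : Subgroup G} (h : X ≤ normalizer L) {x : G} (hx : x ∈ L ⊔ X) :
    ∃ l ∈ L, ∃ a ∈ X, l * a = x := by
  have h1 : x ∈ ((L ⊔ X : Subgroup G) : Set G) := hx
  rw [coe_mul_of_right_le_normalizer_left L X h] at h1
  exact h1

theorem out_EMax {L E₀ E : Subgroup G} (hLC : L ⊓ centralizer (L : Set G) = ⊥)
    (hE : IsEA 2 E) (hle : E₀ ≤ E) (hN : E ≤ normalizer L)
    (hEC : E ⊓ centralizer (L : Set G) = ⊥)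
    (hm : ∀ x ∈ L, x * x = 1 → (∀ y ∈ E₀, x * y = y * x) → x ∈ E₀) :
    E ⊓ (L ⊔ centralizer L) ≤ L := by
  rintro e ⟨he, he'⟩
  obtain ⟨n, hn, c, hc, rfl⟩ := dec_EMax (centralizer_le_normalizer (L : Set G)) he'
  have key : ∀ z, z ∈ L → z ∈ centralizer (L : Set G) → z = 1 := fun z h1 h2 =>
    mem_bot.1 (hLC ▸ (⟨h1, h2⟩ : z ∈ L ⊓ centralizer (L : Set G)))
  have hnc : n * c = c * n := hc n hn
  have h2 : n * n = 1 := by
    refine key _ (L.mul_mem hn hn) ?_
    have h3 := hE.2.2 _ he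
    have h4 : n * n = (c * c)⁻¹ := by
      rw [eq_inv_iff_mul_eq_one, ← h3, pow_two, mul_assoc, mul_assoc, ← mul_assoc n c c,
        ← mul_assoc c n c, hnc]
    rw [h4]
    exact inv_mem (mul_mem hc hc)
  have h5 : ∀ y ∈ E₀, n * y = y * n := by
    intro y hy
    have hyN := hN (hle hy)
    have h6 : y * n * y⁻¹ ∈ L := (mem_normalizer_iff.1 hyN n).1 hn
    have h7 : y * c * y⁻¹ ∈ centralizer (L : Set G) := by
      intro l hl
      have h8 : y⁻¹ * l * y ∈ L := (mem_normalizer_iff''.1 hyN l).1 hl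
      have h9 := hc _ h8
      calc l * (y * c * y⁻¹) = y * (y⁻¹ * l * y * c) * y⁻¹ := by group
        _ = y * (c * (y⁻¹ * l * y)) * y⁻¹ := by rw [h9]
        _ = y * c * y⁻¹ * l := by group
    have h10 : y * (n * c) = n * c * y := hE.2.1 _ (hle hy) _ he
    have h11 : n⁻¹ * (y * n * y⁻¹) = c * (y * c * y⁻¹)⁻¹ := by
      calc n⁻¹ * (y * n * y⁻¹) = n⁻¹ * (y * (n * c)) * c⁻¹ * y⁻¹ := by group
        _ = n⁻¹ * (n * c * y) * c⁻¹ * y⁻¹ := by rw [h10]
        _ = c * (y * c * y⁻¹)⁻¹ := by group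
    have h12 := key _ (mul_mem (inv_mem hn) h6) (h11 ▸ mul_mem hc (inv_mem h7))
    calc n * y = n * (n⁻¹ * (y * n * y⁻¹)) * y := by rw [h12, mul_one]
      _ = y * n := by group
  have h13 : n ∈ E := hle (hm n hn h2 h5)
  have h14 : c ∈ E ⊓ centralizer (L : Set G) := ⟨(mul_mem_cancel_left h13).1 he, hc⟩
  rw [hEC, mem_bot] at h14
  rw [h14, mul_one]
  exact hn

theorem exists_max [Finite G] {L : Subgroup G} (hO : NoOp 2 (centralizer (L : Set G))) :
    ∃ A, Outer L A ∧ NoOp 2 (centralizer (L : Set G) ⊓ centralizer A) ∧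
      ∀ A', Outer L A' → L ⊔ A < L ⊔ A' → ¬NoOp 2 (centralizer (L : Set G) ⊓ centralizer A') := by
  have h0 : Outer L ⊥ ∧ NoOp 2 (centralizer (L : Set G) ⊓ centralizer ((⊥ : Subgroup G) : Set G)) := by
    refine ⟨⟨bot_le, ?_, ?_, inf_le_left.trans bot_le⟩, ?_⟩
    · intro x hx y hy
      rw [mem_bot.1 hx, one_mul, mul_one]
    · intro x hx
      rw [mem_bot.1 hx, one_mul]
    · rwa [cent_EMax, sup_bot_eq]
  obtain ⟨A, hA, hm⟩ := Set.exists_max_image
    {A | Outer L A ∧ NoOp 2 (centralizer (L : Set G) ⊓ centralizer (A : Set G))}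
    (fun A => Nat.card (L ⊔ A : Subgroup G)) (Set.toFinite _) ⟨⊥, h0⟩
  exact ⟨A, hA.1, hA.2, fun A' h1 h2 h3 => h2.ne (eq_of_le_of_card_ge h2.le (hm A' ⟨h1, h3⟩))⟩

theorem above_max [Finite G] {L A E₀ : Subgroup G} (hL : L.IsSubnormal) (hs : IsSimpleGroup L)
    (hna : ∃ x ∈ L, ∃ y ∈ L, x * y ≠ y * x) (hA : Outer L A)
    (hmax : ∀ A', Outer L A' → L ⊔ A < L ⊔ A' → ¬NoOp 2 (centralizer (L : Set G) ⊓ centralizer A'))
    (hE : L ⊔ E₀ = L ⊔ A) (hx : ∃ x ∈ L, x ≠ 1 ∧ x ∈ E₀)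
    (hmaxE : ∀ x ∈ L ⊔ A, x * x = 1 → (∀ y ∈ E₀, x * y = y * x) → x ∈ E₀) :
    centralizer (L : Set G) ⊓ centralizer E₀ = centralizer (L : Set G) ⊓ centralizer A ∧
      centralizer (L : Set G) ⊓ centralizer A ≤ centralizer ((L ⊔ A : Subgroup G) : Set G) ∧
      (L ⊔ A) ⊓ centralizer (L : Set G) = ⊥ ∧
      ∀ E, IsEA 2 E → E₀ < E → ¬NoOp 2 (centralizer (L : Set G) ⊓ centralizer E) := by
  have hLC := inf_cent hs hna
  refine ⟨by rw [cent_EMax, cent_EMax, hE], (cent_EMax L A).le, ?_, fun E hEA hlt hno => ?_⟩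
  · rw [eq_bot_iff]
    rintro x ⟨h1, h2⟩
    obtain ⟨l, hl, a, ha, rfl⟩ := dec_EMax hA.1 h1
    have h3 : a ∈ L := by
      refine hA.2.2.2 ⟨ha, ?_⟩
      exact (mul_mem_cancel_left (mem_sup_left hl)).1 (mem_sup_right h2)
    exact hLC ▸ (⟨L.mul_mem hl h3, h2⟩ : l * a ∈ L ⊓ centralizer (L : Set G))
  · have hsq : ∀ x ∈ E, x * x = 1 := fun x hx => by rw [← pow_two]; exact hEA.2.2 x hx
    have hEC : E ⊓ centralizer (L : Set G) = ⊥ := by
      refine hno _ (le_inf inf_le_right fun x hx y hy => hEA.2.1 y hy x hx.1) ?_ ?_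
      · intro x
        exact ⟨1, Subtype.ext (by simpa using hEA.2.2 x x.2.1)⟩
      · refine le_trans (inf_le_right.trans ?_) (centralizer_le_normalizer _)
        exact centralizer_le (SetLike.coe_subset_coe.2 inf_le_left)
    obtain ⟨x, hxL, hx1, hx0⟩ := hx
    have hN : E ≤ normalizer L := fun g hg =>
      norm_of_fix hL hs hxL hx1 (hEA.2.1 g hg x (hlt.le hx0))
    refine hmax E ⟨hN, hEA.2.1, hsq, out_EMax hLC hEA hlt.le hN hEC
      fun y hy => hmaxE y (mem_sup_left hy)⟩ ?_ hno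
    refine lt_of_le_of_ne (hE ▸ sup_le_sup_left hlt.le L) fun h => hlt.not_ge fun e he => ?_
    exact hmaxE e (h ▸ mem_sup_right he) (hsq e he) fun y hy => hEA.2.1 e he y (hlt.le hy)

end Vale.Agent.P240
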