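import Vale.Agent.P240.E.Ops

/-! P240 E/Prod. The product chain is a strict cycle. Plan: dd_SS by induction with dd_ss. dd_prod:
use dd_SS, exchange sums, evaluate at a list (Finsupp.ext), apply h.face j with
Phi t = SS bot ((List.ofFn t).eraseIdx j) beta l. SS_st: lemma: if t * t = 1, t commutes with M,
t is not in M, then ss (zpowers t) E maps combinations of strict lists in M above E (E <= M, E below
all entries) to strict lists in M sup zpowers t, because (D sup zpowers t) inf M = D; induction on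
the list of elements with M = closure (remaining elements) sup K; t is not in M since
(B sup K) inf H = B for B <= H. -/

namespace Vale.Agent.P240

open Subgroup Finsupp

variable {G : Type*} [Group G]

theorem sup_EProd {A B : Subgroup G} (h : B ≤ centralizer (A : Set G)) {x : G} (hx : x ∈ A ⊔ B) :
    ∃ a ∈ A, ∃ b ∈ B, a * b = x := by
  have h1 : x ∈ ((A ⊔ B : Subgroup G) : Set G) := hx
  rw [coe_mul_of_right_le_normalizer_left A B (h.trans (centralizer_le_normalizer _))] at h1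
  exact h1

theorem supT_EProd {A : Subgroup G} {t : G} (ht : t * t = 1) (hc : ∀ a ∈ A, a * t = t * a) {x : G}
    (hx : x ∈ A ⊔ zpowers t) : ∃ a ∈ A, x = a ∨ x = a * t := by
  obtain ⟨a, ha, b, ⟨n, rfl⟩, rfl⟩ := sup_EProd (zpowers_le.2 (mem_centralizer_iff.2 hc)) hx
  have h2 : ∀ k : ℤ, t ^ (2 * k) = 1 := fun k => by rw [zpow_mul, zpow_two, ht, one_zpow]
  obtain ⟨k, rfl | rfl⟩ := Int.even_or_odd' n
  · exact ⟨a, ha, Or.inl (by simp only [h2, mul_one])⟩
  · exact ⟨a, ha, Or.inr (by simp only [zpow_add_one, h2, one_mul])⟩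

theorem ea_EProd {A : Subgroup G} {t : G} (ht : t * t = 1) (h1 : t ≠ 1)
    (hc : ∀ a ∈ A, a * t = t * a) (hA : ∀ x ∈ A, ∀ y ∈ A, x * y = y * x)
    (hA2 : ∀ x ∈ A, x ^ 2 = 1) : IsEA 2 (A ⊔ zpowers t) := by
  refine ⟨fun h => h1 (mem_bot.1 (h ▸ mem_sup_right (mem_zpowers t))), fun x hx y hy => ?_,
    fun x hx => ?_⟩
  · obtain ⟨a, ha, hx⟩ := supT_EProd ht hc hx
    obtain ⟨b, hb, hy⟩ := supT_EProd ht hc hy
    have c1 : Commute a b := hA a ha b hb
    have c2 : Commute a t := hc a ha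
    have c3 : Commute b t := hc b hb
    rcases hx with rfl | rfl <;> rcases hy with rfl | rfl
    · exact c1
    · exact c1.mul_right c2
    · exact c1.mul_left c3.symm
    · exact (c1.mul_right c2).mul_left (c3.symm.mul_right (Commute.refl t))
  · obtain ⟨a, ha, rfl | rfl⟩ := supT_EProd ht hc hx
    · exact hA2 _ ha
    · have c2 : Commute a t := hc a ha
      rw [c2.mul_pow, hA2 a ha, one_mul, pow_two, ht]

theorem lt_EProd {A B M : Subgroup G} {t : G} (ht : t * t = 1) (hc : ∀ a ∈ M, a * t = t * a)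
    (hM : t ∉ M) (hAB : A < B) (hB : B ≤ M) : A ⊔ zpowers t < B ⊔ zpowers t := by
  refine lt_of_le_of_ne (sup_le_sup_right hAB.le _) fun h => hAB.not_ge fun x hx => ?_
  have h1 : x ∈ A ⊔ zpowers t := h ▸ mem_sup_left hx
  obtain ⟨a, ha, rfl | rfl⟩ := supT_EProd ht (fun a ha => hc a (hB (hAB.le ha))) h1
  · exact ha
  · exact absurd ((M.mul_mem_cancel_left (hB (hAB.le ha))).1 (hB hx)) hM

/-- Strict lists in `M` above `E`. -/
def St_EProd (M E : Subgroup G) : Set (List (Subgroup G)) :=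
  {l | l.Pairwise (· < ·) ∧ ∀ D ∈ l, IsEA 2 D ∧ D ≤ M ∧ E < D}

theorem sl_EProd {M : Subgroup G} {t : G} (ht : t * t = 1) (hc : ∀ a ∈ M, a * t = t * a)
    (hM : t ∉ M) (l : List (Subgroup G)) : ∀ E : Subgroup G, E ≤ M →
      (∀ x ∈ E, ∀ y ∈ E, x * y = y * x) → (∀ x ∈ E, x ^ 2 = 1) → l ∈ St_EProd M E →
        sl (zpowers t) E l ∈ supported ℚ ℚ (St_EProd (M ⊔ zpowers t) E) := by
  have h1 : t ≠ 1 := fun h => hM (h ▸ M.one_mem)
  have hE : ∀ E : Subgroup G, E ≤ M → (∀ x ∈ E, ∀ y ∈ E, x * y = y * x) → (∀ x ∈ E, x ^ 2 = 1) →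
      IsEA 2 (E ⊔ zpowers t) ∧ E ⊔ zpowers t ≤ M ⊔ zpowers t ∧ E < E ⊔ zpowers t :=
    fun E hEM a1 a2 => ⟨ea_EProd ht h1 (fun a ha => hc a (hEM ha)) a1 a2, sup_le_sup_right hEM _,
      lt_of_le_of_ne le_sup_left fun h => hM (hEM (h ▸ mem_sup_right (mem_zpowers t)))⟩
  induction l with
  | nil =>
    intro E hEM a1 a2 _
    rw [sl]
    refine single_mem_supported ℚ _ ⟨List.pairwise_singleton _ _, fun D hD => ?_⟩
    rw [List.mem_singleton.1 hD]
    exact hE E hEM a1 a2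
  | cons D l ih =>
    intro E hEM a1 a2 hl
    obtain ⟨b1, b2, b3⟩ := hl.2 D List.mem_cons_self
    rw [sl]
    refine sub_mem (single_mem_supported ℚ _ ⟨List.pairwise_cons.2 ⟨fun D' hD' => ?_, ?_⟩,
      fun D' hD' => ?_⟩) ?_
    · obtain ⟨D₀, hD₀, rfl⟩ := List.mem_map.1 hD'
      exact lt_EProd ht hc hM (hl.2 D₀ hD₀).2.2 (hl.2 D₀ hD₀).2.1
    · rw [List.pairwise_map]
      exact hl.1.imp_of_mem fun _ hb hab => lt_EProd ht hc hM hab (hl.2 _ hb).2.1
    · rcases List.mem_cons.1 hD' with rfl | hD'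
      · exact hE E hEM a1 a2
      · obtain ⟨D₀, hD₀, rfl⟩ := List.mem_map.1 hD'
        obtain ⟨c1, c2, c3⟩ := hl.2 D₀ hD₀
        obtain ⟨d1, d2, d3⟩ := hE D₀ c2 c1.2.1 c1.2.2
        exact ⟨d1, d2, c3.trans d3⟩
    · have hp := List.pairwise_cons.1 hl.1
      have h2 := ih D b2 b1.2.1 b1.2.2 ⟨hp.2, fun D' hD' =>
        ⟨(hl.2 D' (List.mem_cons_of_mem _ hD')).1, (hl.2 D' (List.mem_cons_of_mem _ hD')).2.1,
          hp.1 D' hD'⟩⟩
      refine supported_comap_lmapDomain ℚ ℚ (List.cons D) _ (supported_mono (fun l' hl' => ?_) h2)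
      refine ⟨List.pairwise_cons.2 ⟨fun D' hD' => (hl'.2 D' hD').2.2, hl'.1⟩, fun D' hD' => ?_⟩
      rcases List.mem_cons.1 hD' with rfl | hD'
      · exact ⟨b1, b2.trans le_sup_left, b3⟩
      · exact ⟨(hl'.2 D' hD').1, (hl'.2 D' hD').2.1, b3.trans (hl'.2 D' hD').2.2⟩

theorem ss_EProd {M : Subgroup G} {t : G} (ht : t * t = 1) (hc : ∀ a ∈ M, a * t = t * a)
    (hM : t ∉ M) {x : LV G} (hx : x ∈ supported ℚ ℚ (StIn 2 M)) :
    ss (zpowers t) ⊥ x ∈ supported ℚ ℚ (StIn 2 (M ⊔ zpowers t)) := by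
  rw [ss, linearCombination_apply, Finsupp.sum]
  refine Submodule.sum_mem _ fun l hl => Submodule.smul_mem _ _ ?_
  have h1 : l ∈ StIn 2 M := (mem_supported ℚ x).1 hx hl
  have h2 := sl_EProd ht hc hM l ⊥ bot_le
    (fun x hx y hy => by rw [mem_bot.1 hx, mem_bot.1 hy])
    (fun x hx => by rw [mem_bot.1 hx, one_pow])
    ⟨h1.1, fun D hD => ⟨(h1.2 D hD).1, (h1.2 D hD).2, bot_lt_iff_ne_bot.2 (h1.2 D hD).1.1⟩⟩
  have h3 : St_EProd (M ⊔ zpowers t) ⊥ ⊆ StIn 2 (M ⊔ zpowers t) :=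
    fun l' hl' => ⟨hl'.1, fun D hD => ⟨(hl'.2 D hD).1, (hl'.2 D hD).2.1⟩⟩
  exact supported_mono h3 h2

theorem mono_EProd {M M' : Subgroup G} (h : M ≤ M') {x : LV G}
    (hx : x ∈ supported ℚ ℚ (StIn 2 M)) : x ∈ supported ℚ ℚ (StIn 2 M') := by
  have h1 : StIn 2 M ⊆ StIn 2 M' :=
    fun _ hl => ⟨hl.1, fun D hD => ⟨(hl.2 D hD).1, (hl.2 D hD).2.trans h⟩⟩
  exact supported_mono h1 hx

theorem SS_EProd {H K : Subgroup G} (hHK : K ≤ centralizer H) (hd : H ⊓ K = ⊥) {β : LV G}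
    (hβ : β ∈ supported ℚ ℚ (StIn 2 K)) (m : ℕ) : ∀ t : Fin m → G, (∀ j, t j * t j = 1) →
      (∀ j j', t j * t j' = t j' * t j) → (∀ j, t j ∉ closure (t '' {j' | j' ≠ j})) →
      (∀ j, t j ∈ H) →
        SS ⊥ (List.ofFn t) β ∈ supported ℚ ℚ (StIn 2 (closure (Set.range t) ⊔ K)) := by
  induction m with
  | zero =>
    intro t _ _ _ _
    rw [List.ofFn_zero, SS]
    exact mono_EProd le_sup_right hβ
  | succ m ih =>
    intro t sq comm indep ht
    have h1 := ih (fun i => t i.succ) (fun j => sq _) (fun j j' => comm _ _) (fun j hj =>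
      indep j.succ (Subgroup.closure_mono (by
        rintro _ ⟨j', hj', rfl⟩
        exact ⟨j'.succ, fun e => hj' (Fin.succ_injective _ e), rfl⟩) hj)) fun j => ht _
    set B := closure (Set.range fun i : Fin m => t i.succ) with hB
    have hBH : B ≤ H := (closure_le _).2 (by
      rintro _ ⟨j, rfl⟩
      exact ht _)
    have hc : B ⊔ K ≤ centralizer {t 0} := by
      refine sup_le ((closure_le _).2 ?_) (hHK.trans (centralizer_le ?_))
      · rintro _ ⟨j, rfl⟩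
        exact mem_centralizer_singleton_iff.2 (comm _ _)
      · exact Set.singleton_subset_iff.2 (ht 0)
    have hn : t 0 ∉ B ⊔ K := by
      intro h
      obtain ⟨a, ha, b, hb, hab⟩ := sup_EProd (hHK.trans (centralizer_le hBH)) h
      have h2 : b ∈ H ⊓ K := ⟨(H.mul_mem_cancel_left (hBH ha)).1 (hab ▸ ht 0), hb⟩
      rw [hd, mem_bot] at h2
      rw [h2, mul_one] at hab
      refine indep 0 (Subgroup.closure_mono ?_ (hab ▸ ha))
      rintro _ ⟨j, rfl⟩
      exact ⟨j.succ, Fin.succ_ne_zero j, rfl⟩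
    rw [List.ofFn_succ, SS, LinearMap.comp_apply]
    refine mono_EProd ?_ (ss_EProd (sq 0)
      (fun a ha => mem_centralizer_singleton_iff.1 (hc ha)) hn h1)
    refine sup_le (sup_le_sup_right (Subgroup.closure_mono ?_) K) (le_sup_left.trans' ?_)
    · rintro _ ⟨j, rfl⟩
      exact ⟨j.succ, rfl⟩
    · exact zpowers_le.2 (subset_closure ⟨0, rfl⟩)

omit [Group G] in
theorem erase_EProd {m : ℕ} {t t' : Fin m → G} (j : Fin m) (h : ∀ j', j' ≠ j → t j' = t' j') :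
    (List.ofFn t).eraseIdx j = (List.ofFn t').eraseIdx j := by
  have h1 : ∀ i : ℕ, i ≠ j → (List.ofFn t)[i]? = (List.ofFn t')[i]? := by
    intro i hi
    rw [List.getElem?_ofFn, List.getElem?_ofFn]
    split_ifs with h2
    · rw [h ⟨i, h2⟩ fun e => hi (congrArg Fin.val e)]
    · rfl
  refine List.ext_getElem? fun i => ?_
  rw [List.getElem?_eraseIdx, List.getElem?_eraseIdx]
  split_ifs with h2
  · exact h1 i h2.ne
  · exact h1 (i + 1) (by omega)

theorem dd_SS (E : Subgroup G) (ts : List G) {β : LV G} (hβ : dd G β = 0) :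
    dd G (SS E ts β) = ∑ i ∈ Finset.range ts.length, (-1 : ℚ) ^ i • SS E (ts.eraseIdx i) β := by
  induction ts with
  | nil => simpa [SS] using hβ
  | cons t ts ih =>
    have h1 := dd_ss (zpowers t) E (SS E ts β)
    rw [ih, map_sum] at h1
    rw [List.length_cons, Finset.sum_range_succ', pow_zero, one_smul, List.eraseIdx_cons_zero, SS,
      LinearMap.comp_apply, eq_sub_of_add_eq h1, sub_eq_neg_add, ← Finset.sum_neg_distrib]
    congr 1
    refine Finset.sum_congr rfl fun i _ => ?_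
    rw [List.eraseIdx_cons_succ, SS, LinearMap.comp_apply, map_smul, pow_succ, mul_neg, mul_one,
      neg_smul]

theorem Sys.dd_prod {m : ℕ} {Γ : Type*} [Fintype Γ] {τ : Γ → Fin m → G} {c : Γ → ℚ} {γ₀ : Γ}
    (h : Sys τ c γ₀) {β : LV G} (hβ : dd G β = 0) :
    dd G (∑ γ, c γ • SS ⊥ (List.ofFn (τ γ)) β) = 0 := by
  rw [map_sum]
  simp only [map_smul, dd_SS _ _ hβ, List.length_ofFn, Finset.smul_sum]
  rw [Finset.sum_comm]
  refine Finset.sum_eq_zero fun i hi => ?_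
  ext l
  have h1 := h.face ⟨i, Finset.mem_range.1 hi⟩
    (fun t => (-1 : ℚ) ^ i * SS ⊥ ((List.ofFn t).eraseIdx i) β l) fun t t' htt => by
      rw [erase_EProd ⟨i, Finset.mem_range.1 hi⟩ htt]
  rw [Finsupp.finsetSum_apply]
  exact h1

theorem SS_st {m : ℕ} {t : Fin m → G} (sq : ∀ j, t j * t j = 1)
    (comm : ∀ j j', t j * t j' = t j' * t j) (indep : ∀ j, t j ∉ closure (t '' {j' | j' ≠ j}))
    {H K : Subgroup G} (ht : ∀ j, t j ∈ H) (hHK : K ≤ centralizer H) (hd : H ⊓ K = ⊥) {β : LV G}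
    (hβ : β ∈ supported ℚ ℚ (StIn 2 K)) :
    SS ⊥ (List.ofFn t) β ∈ supported ℚ ℚ (StIn 2 (⊤ : Subgroup G)) := by
  exact mono_EProd le_top (SS_EProd hHK hd hβ m t sq comm indep ht)

end Vale.Agent.P240
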