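import Vale.Agent.P240.E.Ops

/-! P240 E/Strip. Removing an initial saturated flag is a chain map up to sign. Plan: induction on ts
generalizing E and y. One step: F = E sup zpowers t consists of E and E t, so no D has E < D < F; for a
strict list H :: l above E, strip F (single l 1) = 0, hence strip F (dd y) = - dd (strip F y) by dd_cs
and strip_cs, and strip F y is supported on StAb F. -/

namespace Vale.Agent.P240

open Subgroup Finsupp

section

variable {G : Type*} [Group G]

theorem mem_EStrip {E : Subgroup G} {t : G} (sq : t * t = 1) (hE : ∀ x ∈ E, t * x = x * t) {x : G}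
    (hx : x ∈ E ⊔ zpowers t) : x ∈ E ∨ x * t ∈ E := by
  have hc : ∀ y, y * t ∈ E → t * y = y * t := fun y hy => by
    have h1 := hE _ hy
    rw [← mul_assoc] at h1
    exact mul_right_cancel h1
  let K : Subgroup G :=
    { carrier := {x | x ∈ E ∨ x * t ∈ E}
      one_mem' := Or.inl E.one_mem
      mul_mem' := by
        rintro a b (ha | ha) (hb | hb)
        · exact Or.inl (E.mul_mem ha hb)
        · exact Or.inr (by rw [mul_assoc]; exact E.mul_mem ha hb)
        · exact Or.inr (by rw [mul_assoc, ← hE b hb, ← mul_assoc]; exact E.mul_mem ha hb)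
        · have h1 := E.mul_mem ha hb
          rw [← hc b hb, mul_assoc, ← mul_assoc t, sq, one_mul] at h1
          exact Or.inl h1
      inv_mem' := by
        rintro a (ha | ha)
        · exact Or.inl (E.inv_mem ha)
        · have h1 := E.inv_mem ha
          rw [← hc a ha, mul_inv_rev, inv_eq_of_mul_eq_one_right sq] at h1
          exact Or.inr h1 }
  have h1 : E ⊔ zpowers t ≤ K :=
    sup_le (fun a ha => Or.inl ha) ((zpowers_le).2 (Or.inr (by rw [sq]; exact E.one_mem)))
  exact h1 hx

theorem sat_EStrip {E D : Subgroup G} {t : G} (sq : t * t = 1) (hE : ∀ x ∈ E, t * x = x * t)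
    (h1 : E < D) : ¬ D < E ⊔ zpowers t := by
  intro h2
  obtain ⟨x, hx, hx'⟩ := SetLike.exists_of_lt h1
  have h3 := D.mul_mem (D.inv_mem hx) (h1.le ((mem_EStrip sq hE (h2.le hx)).resolve_left hx'))
  rw [inv_mul_cancel_left] at h3
  exact h2.not_ge (sup_le h1.le ((zpowers_le).2 h3))

theorem cs_EStrip (H : Subgroup G) (l : List (Subgroup G)) :
    (single (H :: l) 1 : LV G) = cs H (single l 1) := by
  rw [cs, lmapDomain_apply, mapDomain_single]

theorem nil_EStrip (F : Subgroup G) : strip F (single [] 1) = 0 := by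
  rw [strip, linearCombination_single, stl, smul_zero]

theorem step_EStrip {E F : Subgroup G} (h : ∀ D, E < D → ¬ D < F) {y : LV G}
    (hy : y ∈ supported ℚ ℚ (StAb E)) :
    strip F y ∈ supported ℚ ℚ (StAb F) ∧ strip F (dd G y) = -dd G (strip F y) := by
  classical
  rw [supported_eq_span_single] at hy
  induction hy using Submodule.span_induction with
  | zero => simp
  | add a b _ _ ha hb =>
    refine ⟨by rw [map_add]; exact Submodule.add_mem _ ha.1 hb.1, ?_⟩
    rw [map_add, map_add, map_add, map_add, ha.2, hb.2, neg_add]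
  | smul c a _ ha =>
    refine ⟨by rw [map_smul]; exact Submodule.smul_mem _ _ ha.1, ?_⟩
    rw [map_smul, map_smul, map_smul, map_smul, ha.2, smul_neg]
  | mem x hx =>
    obtain ⟨l, hl, rfl⟩ := hx
    rcases l with _ | ⟨H, l⟩
    · simp only [dd_nil, nil_EStrip, map_zero, neg_zero, Submodule.zero_mem, and_self]
    obtain ⟨h1, h2⟩ := List.pairwise_cons.1 hl.1
    have h3 : strip F (single l 1) = 0 := by
      rcases l with _ | ⟨D, l⟩
      · exact nil_EStrip F
      · rw [cs_EStrip, strip_cs, if_neg]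
        rintro rfl
        exact h H (hl.2 H List.mem_cons_self).2 (h1 D List.mem_cons_self)
    simp only [cs_EStrip, dd_cs, map_sub, strip_cs, h3, zero_sub]
    split_ifs with hH
    · subst hH
      exact ⟨single_mem_supported ℚ 1
        ⟨h2, fun D hD => ⟨(hl.2 D (List.mem_cons_of_mem _ hD)).1, h1 D hD⟩⟩, rfl⟩
    · exact ⟨Submodule.zero_mem _, by rw [map_zero]⟩

end

theorem STR_dd {G : Type*} [Group G] (ts : List G) (E : Subgroup G) (sq : ∀ t ∈ ts, t * t = 1)
    (comm : ∀ t ∈ ts, ∀ t' ∈ ts, t * t' = t' * t) (hE : ∀ t ∈ ts, ∀ x ∈ E, t * x = x * t)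
    {y : LV G} (hy : y ∈ supported ℚ ℚ (StAb E)) :
    STR (fl E ts) y ∈ supported ℚ ℚ (StAb (E ⊔ closure {t | t ∈ ts})) ∧
      STR (fl E ts) (dd G y) = (-1 : ℚ) ^ ts.length • dd G (STR (fl E ts) y) := by
  induction ts generalizing E y with
  | nil => simpa [fl, STR] using hy
  | cons t ts ih =>
    have m0 : t ∈ t :: ts := List.mem_cons_self
    obtain ⟨h1, h2⟩ := step_EStrip (fun D => sat_EStrip (sq t m0) (hE t m0)) hy
    have h3 : ∀ s ∈ ts, ∀ x ∈ E ⊔ zpowers t, s * x = x * s := fun s hs x hx => by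
      have m1 : s ∈ t :: ts := List.mem_cons_of_mem _ hs
      have h4 : E ⊔ zpowers t ≤ centralizer {s} :=
        sup_le (fun a ha => mem_centralizer_singleton_iff.2 (hE s m1 a ha).symm)
          ((zpowers_le).2 (mem_centralizer_singleton_iff.2 (comm t m0 s m1)))
      exact (mem_centralizer_singleton_iff.1 (h4 hx)).symm
    obtain ⟨h4, h5⟩ := ih (E ⊔ zpowers t) (fun s hs => sq s (List.mem_cons_of_mem _ hs))
      (fun s hs s' hs' => comm s (List.mem_cons_of_mem _ hs) s' (List.mem_cons_of_mem _ hs')) h3 h1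
    have h6 : E ⊔ closure {s | s ∈ t :: ts} = E ⊔ zpowers t ⊔ closure {s | s ∈ ts} := by
      rw [sup_assoc, zpowers_eq_closure, ← Subgroup.closure_union]
      congr 2
      ext s
      simp
    rw [h6]
    simp only [fl, STR, LinearMap.comp_apply]
    refine ⟨h4, ?_⟩
    rw [h2, map_neg, h5, List.length_cons, pow_succ, mul_neg_one, neg_smul]

end Vale.Agent.P240
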