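import Vale.Agent.P240.E.Inj
import Vale.Agent.P240.E.Prod
import Vale.Agent.P240.E.Strip
import Vale.Agent.P240.E.Coef
import Vale.Agent.P240.E.CoNe
import Vale.Agent.P240.E.Cent
import Vale.Agent.P240.CycA
import Vale.Agent.P240.E.Max

/-! P240 E/Main. The elimination theorem. -/

namespace Vale.Agent.P240

open Subgroup Finsupp

theorem elim {G : Type*} [Group G] [Finite G] {L : Subgroup G} (hL : L.IsSubnormal)
    (hs : IsSimpleGroup L) (hna : ∃ x ∈ L, ∃ y ∈ L, x * y ≠ y * x)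
    (hO : NoOp 2 (⊤ : Subgroup G)) (H1 : ∀ K : Subgroup G, K ≠ ⊤ → NoOp 2 K → HQ 2 K)
    (hPC : ∀ A, Outer L A → PC L (L ⊔ A)) : HQ 2 (⊤ : Subgroup G) := by
  obtain ⟨A, hA, hK, hmax⟩ := exists_max (noOp_cent hL hs hna hO)
  obtain ⟨m, Γ, _, τ, c, γ₀, h, hH, hE, hx, hm⟩ := hPC A hA
  obtain ⟨e1, e2, e3, hW⟩ := above_max (E₀ := closure (Set.range (τ γ₀))) hL hs hna hA hmax hE hx
    fun x hx h1 h2 => hm x hx h1 fun j => h2 _ (subset_closure ⟨j, rfl⟩)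
  have hE0 : IsEA 2 (closure (Set.range (τ γ₀))) := by
    obtain ⟨x, -, h1, h2⟩ := hx
    rcases m with _ | k
    · rw [Set.range_eq_empty, Subgroup.closure_empty, mem_bot] at h2
      exact absurd h2 h1
    · have h3 := (flag_chain (h.sq γ₀) (h.comm γ₀) (h.indep γ₀)).2 (Fin.last k)
      rwa [flag, show Set.Iic (Fin.last k) = Set.univ from Set.Iic_top, Set.image_univ] at h3
  have hEH : closure (Set.range (τ γ₀)) ≤ L ⊔ A := hE ▸ le_sup_right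
  have hKtop : centralizer (L : Set G) ⊓ centralizer (A : Set G) ≠ ⊤ := by
    intro h1
    obtain ⟨x, hx, y, hy, hxy⟩ := hna
    have h2 : y ∈ centralizer (L : Set G) ⊓ centralizer (A : Set G) := h1 ▸ mem_top y
    exact hxy (h2.1 x hx)
  obtain ⟨β, hβ, hd, hne⟩ := H1 _ hKtop hK
  have hHK : (L ⊔ A) ⊓ (centralizer (L : Set G) ⊓ centralizer (A : Set G)) = ⊥ :=
    le_bot_iff.1 ((inf_le_inf_left _ inf_le_left).trans e3.le)
  refine ⟨∑ γ, c γ • SS ⊥ (List.ofFn (τ γ)) β, Submodule.sum_mem _ fun γ _ => Submodule.smul_mem _ _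
    (SS_st (h.sq γ) (h.comm γ) (h.indep γ) (hH γ) e2 hHK hβ), h.dd_prod hd, fun y hy hyz => ?_⟩
  have hy' : y ∈ supported ℚ ℚ (StAb (⊥ : Subgroup G)) :=
    supported_mono (s := StIn 2 ⊤) (fun l hl => And.intro hl.1 fun E hE =>
      And.intro (hl.2 E hE).1 (bot_lt_iff_ne_bot.2 (hl.2 E hE).1.1)) hy
  have hset : {t | t ∈ List.ofFn (τ γ₀)} = Set.range (τ γ₀) := by
    ext t
    simp [List.mem_ofFn']
  obtain ⟨s1, s2⟩ := STR_dd (List.ofFn (τ γ₀)) ⊥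
    (fun t ht => by
      obtain ⟨j, rfl⟩ := (List.mem_ofFn' _ _).1 ht
      exact h.sq γ₀ j)
    (fun t ht t' ht' => by
      obtain ⟨j, rfl⟩ := (List.mem_ofFn' _ _).1 ht
      obtain ⟨j', rfl⟩ := (List.mem_ofFn' _ _).1 ht'
      exact h.comm γ₀ j j')
    (fun t _ x hx => by rw [mem_bot.1 hx, mul_one, one_mul]) hy'
  rw [hset, bot_sup_eq] at s1
  have hF : ∀ F ∈ fl ⊥ (List.ofFn (τ γ₀)), F ≤ L ⊔ A := by
    intro F hF
    rw [fl_ofFn] at hF
    obtain ⟨j, rfl⟩ := (List.mem_ofFn' _ _).1 hF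
    exact (Subgroup.closure_mono (Set.image_subset_range _ _)).trans hEH
  have s3 : ∀ γ, STR (fl ⊥ (List.ofFn (τ γ₀))) (SS ⊥ (List.ofFn (τ γ)) β) =
      co (fl ⊥ (List.ofFn (τ γ₀))) ⊥ (List.ofFn (τ γ)) • mu (closure (Set.range (τ γ₀))) β := by
    intro γ
    have h1 := STR_SS hHK hβ _ hF ⊥ (List.ofFn (τ γ)) (by rw [fl_ofFn]; simp)
    rwa [mu_bot, fl_last, hset, bot_sup_eq] at h1
  rw [hyz, map_sum] at s2
  simp only [map_smul, s3, smul_smul, ← Finset.sum_smul] at s2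
  have hc := h.co_ne
  rw [← e1] at hβ hne
  obtain ⟨y', h1, h2⟩ := inj_W (centralizer (L : Set G)) _ hE0
    (le_bot_iff.1 ((inf_le_inf_right _ hEH).trans e3.le)) hW hβ hd
    (Submodule.smul_mem _ ((∑ γ, c γ * co (fl ⊥ (List.ofFn (τ γ₀))) ⊥ (List.ofFn (τ γ)))⁻¹ *
      (-1) ^ (List.ofFn (τ γ₀)).length) s1)
    (by rw [map_smul, mul_smul, ← s2, smul_smul, inv_mul_cancel₀ hc, one_smul])
  exact hne y' h1 h2

end Vale.Agent.P240
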