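import Vale.Agent.P240.E.Def2

/-! P240 E/Ops. Formal identities, valid for all lists. Plan: reduce to x = single l 1 by
Finsupp.lhom_ext' or Finsupp.induction_linear; dd_cs from Finset.sum_range_succ' and
List.eraseIdx_cons_succ; the others by induction on l (generalizing E) using dd_cs. -/

namespace Vale.Agent.P240

open Subgroup Finsupp

variable {G : Type*} [Group G]

theorem ext_EOps {f g : LV G →ₗ[ℚ] LV G} (h : ∀ l, f (single l 1) = g (single l 1)) (x : LV G) :
    f x = g x :=
  LinearMap.congr_fun (lhom_ext' fun l => LinearMap.ext_ring (h l)) x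

theorem dd_EOps (l : List (Subgroup G)) : dd G (single l 1) =
    ∑ i ∈ Finset.range l.length, (-1 : ℚ) ^ i • single (l.eraseIdx i) (1 : ℚ) := by
  rw [dd, linearCombination_single, one_smul]

theorem cs_EOps (E : Subgroup G) (l : List (Subgroup G)) :
    cs E (single l 1) = single (E :: l) 1 := by
  rw [cs, lmapDomain_apply, mapDomain_single]

theorem mu_EOps (A : Subgroup G) (l : List (Subgroup G)) :
    mu A (single l 1) = single (l.map (· ⊔ A)) 1 := by
  rw [mu, lmapDomain_apply, mapDomain_single]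

theorem ss_EOps (T E : Subgroup G) (l : List (Subgroup G)) : ss T E (single l 1) = sl T E l := by
  rw [ss, linearCombination_single, one_smul]

theorem strip_EOps (F : Subgroup G) (l : List (Subgroup G)) : strip F (single l 1) = stl F l := by
  rw [strip, linearCombination_single, one_smul]

theorem mucs_EOps (A E : Subgroup G) (x : LV G) : mu A (cs E x) = cs (E ⊔ A) (mu A x) :=
  ext_EOps (f := mu A ∘ₗ cs E) (g := cs (E ⊔ A) ∘ₗ mu A) (fun l => by
    simp only [LinearMap.comp_apply, cs_EOps, mu_EOps, List.map_cons]) x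

theorem sscs_EOps (T E D : Subgroup G) (x : LV G) :
    ss T E (cs D x) = cs (E ⊔ T) (mu T (cs D x)) - cs D (ss T D x) :=
  ext_EOps (f := ss T E ∘ₗ cs D) (g := cs (E ⊔ T) ∘ₗ mu T ∘ₗ cs D - cs D ∘ₗ ss T D) (fun l => by
    simp only [LinearMap.comp_apply, LinearMap.sub_apply, cs_EOps, mu_EOps, ss_EOps, sl]) x

theorem ssnil_EOps (T E : Subgroup G) : ss T E (single [] 1) = cs (E ⊔ T) (single [] 1) := by
  rw [ss_EOps, cs_EOps, sl]

theorem munil_EOps (A : Subgroup G) : mu A (single [] 1) = single [] 1 := mu_EOps A []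

theorem ssind_EOps (T E D : Subgroup G) (x : LV G) :
    ss T E x = ss T D x - cs (D ⊔ T) (mu T x) + cs (E ⊔ T) (mu T x) := by
  refine ext_EOps (g := ss T D - cs (D ⊔ T) ∘ₗ mu T + cs (E ⊔ T) ∘ₗ mu T) (fun l => ?_) x
  simp only [LinearMap.comp_apply, LinearMap.sub_apply, LinearMap.add_apply]
  cases l with
  | nil => rw [ssnil_EOps, ssnil_EOps, munil_EOps, sub_self, zero_add]
  | cons H l =>
    rw [← cs_EOps, sscs_EOps, sscs_EOps]
    abel

theorem dd_nil : dd G (single [] 1) = 0 := by
  rw [dd_EOps, List.length_nil, Finset.sum_range_zero]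

theorem dd_cs (E : Subgroup G) (x : LV G) : dd G (cs E x) = x - cs E (dd G x) := by
  refine ext_EOps (f := dd G ∘ₗ cs E) (g := LinearMap.id - cs E ∘ₗ dd G) (fun l => ?_) x
  simp only [LinearMap.comp_apply, LinearMap.sub_apply, LinearMap.id_apply, cs_EOps, dd_EOps,
    List.length_cons, Finset.sum_range_succ', List.eraseIdx_cons_succ, List.eraseIdx_cons_zero,
    map_sum, map_smul, pow_zero, one_smul, pow_succ, mul_neg_one, neg_smul, Finset.sum_neg_distrib]
  abel

theorem dd_dd (x : LV G) : dd G (dd G x) = 0 := by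
  refine ext_EOps (f := dd G ∘ₗ dd G) (g := 0) (fun l => ?_) x
  simp only [LinearMap.comp_apply, LinearMap.zero_apply]
  induction l with
  | nil => rw [dd_nil, map_zero]
  | cons E l ih => rw [← cs_EOps, dd_cs, map_sub, dd_cs, ih, map_zero, sub_zero, sub_self]

theorem dd_mu (A : Subgroup G) (x : LV G) : dd G (mu A x) = mu A (dd G x) := by
  refine ext_EOps (f := dd G ∘ₗ mu A) (g := mu A ∘ₗ dd G) (fun l => ?_) x
  simp only [LinearMap.comp_apply]
  induction l with
  | nil => rw [munil_EOps, dd_nil, map_zero]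
  | cons E l ih => rw [← cs_EOps, mucs_EOps, dd_cs, dd_cs, ih, map_sub, mucs_EOps]

theorem mu_mu (A B : Subgroup G) (x : LV G) : mu A (mu B x) = mu (B ⊔ A) x := by
  refine ext_EOps (f := mu A ∘ₗ mu B) (fun l => ?_) x
  simp only [LinearMap.comp_apply, mu_EOps, List.map_map, Function.comp_def, sup_assoc]

theorem mu_bot (x : LV G) : mu (⊥ : Subgroup G) x = x := by
  refine ext_EOps (g := LinearMap.id) (fun l => ?_) x
  simp only [LinearMap.id_apply, mu_EOps, sup_bot_eq, List.map_id']

theorem dd_ss (T E : Subgroup G) (x : LV G) : dd G (ss T E x) + ss T E (dd G x) = x := by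
  refine ext_EOps (f := dd G ∘ₗ ss T E + ss T E ∘ₗ dd G) (g := LinearMap.id) (fun l => ?_) x
  simp only [LinearMap.comp_apply, LinearMap.add_apply, LinearMap.id_apply]
  induction l generalizing E with
  | nil => rw [ssnil_EOps, dd_cs, dd_nil, map_zero, map_zero, sub_zero, add_zero]
  | cons D l ih =>
    have h := congrArg (cs D) (ih D)
    rw [map_add] at h
    rw [← cs_EOps, sscs_EOps, map_sub, dd_cs, dd_cs, dd_mu, dd_cs, map_sub, map_sub, map_sub,
      sscs_EOps, ssind_EOps T E D, mucs_EOps, ← h]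
    abel

theorem mu_ss (A T E : Subgroup G) (x : LV G) : mu A (ss T E x) = ss T (E ⊔ A) (mu A x) := by
  refine ext_EOps (f := mu A ∘ₗ ss T E) (g := ss T (E ⊔ A) ∘ₗ mu A) (fun l => ?_) x
  simp only [LinearMap.comp_apply]
  induction l generalizing E with
  | nil => rw [munil_EOps, ssnil_EOps, ssnil_EOps, mucs_EOps, munil_EOps, sup_right_comm]
  | cons D l ih =>
    rw [← cs_EOps, sscs_EOps, map_sub, mucs_EOps, mucs_EOps A D, mucs_EOps A D, ih, sscs_EOps,
      ← mucs_EOps A D, mu_mu, mu_mu, sup_right_comm, sup_comm T]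

open Classical in
theorem strip_cs (F H : Subgroup G) (x : LV G) : strip F (cs H x) = if H = F then x else 0 := by
  split_ifs with h
  · refine ext_EOps (f := strip F ∘ₗ cs H) (g := LinearMap.id) (fun l => ?_) x
    simp only [LinearMap.comp_apply, LinearMap.id_apply, cs_EOps, strip_EOps, stl, if_pos h]
  · refine ext_EOps (f := strip F ∘ₗ cs H) (g := 0) (fun l => ?_) x
    simp only [LinearMap.comp_apply, LinearMap.zero_apply, cs_EOps, strip_EOps, stl, if_neg h]

open Classical in
theorem strip_ss (F T E : Subgroup G) (x : LV G) :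
    strip F (ss T E x) = (if F = E ⊔ T then mu T x else 0) - ss T F (strip F x) := by
  have h1 : ss T F x - cs (F ⊔ T) (mu T x) = ss T E x - cs (E ⊔ T) (mu T x) := by
    rw [ssind_EOps T F E, add_sub_cancel_right]
  have h2 : strip F (ss T F x - cs (F ⊔ T) (mu T x)) = -ss T F (strip F x) := by
    refine ext_EOps (f := strip F ∘ₗ (ss T F - cs (F ⊔ T) ∘ₗ mu T)) (g := -ss T F ∘ₗ strip F)
      (fun l => ?_) x
    simp only [LinearMap.comp_apply, LinearMap.sub_apply, LinearMap.neg_apply]
    cases l with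
    | nil => rw [ssnil_EOps, munil_EOps, sub_self, strip_EOps, stl, map_zero, map_zero, neg_zero]
    | cons D l =>
      rw [← cs_EOps, sscs_EOps, sub_sub_cancel_left, map_neg, strip_cs, strip_cs]
      split_ifs with h
      · rw [h]
      · rw [map_zero]
  rw [h1, map_sub, strip_cs, sub_eq_iff_eq_add] at h2
  rw [h2, neg_add_eq_sub]
  simp only [eq_comm (a := F)]

theorem dd_mem {S : Set (List (Subgroup G))} (hS : ∀ l ∈ S, ∀ l', l'.Sublist l → l' ∈ S)
    {x : LV G} (hx : x ∈ supported ℚ ℚ S) : dd G x ∈ supported ℚ ℚ S := by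
  rw [supported_eq_span_single] at hx
  induction hx using Submodule.span_induction with
  | mem y hy =>
    obtain ⟨l, hl, rfl⟩ := hy
    rw [dd_EOps]
    exact Submodule.sum_mem _ fun i _ => Submodule.smul_mem _ _
      (single_mem_supported ℚ _ (hS l hl _ (List.eraseIdx_sublist l i)))
  | zero => rw [map_zero]; exact Submodule.zero_mem _
  | add a b _ _ ha hb => rw [map_add]; exact Submodule.add_mem _ ha hb
  | smul c a _ ha => rw [map_smul]; exact Submodule.smul_mem _ _ ha

end Vale.Agent.P240
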